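import Vale.Agent.Lib.P154N.D8.Data
import Vale.Agent.Lib.P154N.Red

/-!
# Leaves of the tree of triangles
-/

namespace Vale.Agent.Lib.P154N.D8

open Vale.Agent.Lib.P154K Vale.Agent.Lib.P154Neg

theorem l0 : HoldsN X2 (Trg.left (Trg.left (Trg.left (chamberN 5 14)))) (Trg.left (Trg.left (Trg.left (chamberN 5 14)))) :=
  HoldsN.of_red (k := 16) (m := 16) (leaf ok2 (G363 _ rfl) (G194 _ rfl) (G194 _ rfl) (by decide +kernel))
theorem l1 : HoldsN X2 (Trg.left (Trg.left (Trg.left (chamberN 5 14)))) (Trg.right (Trg.left (Trg.left (chamberN 5 14)))) :=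
  HoldsN.of_red (k := 16) (m := 16) (leaf ok2 (G326 _ rfl) (G257 _ rfl) (G214 _ rfl) (by decide +kernel))
theorem l2 : HoldsN X2 (Trg.left (Trg.left (Trg.left (chamberN 5 14)))) (Trg.right (Trg.left (chamberN 5 14))) :=
  HoldsN.of_red (k := 16) (m := 16) (leaf ok2 (G363 _ rfl) (G195 _ rfl) (G163 _ rfl) (by decide +kernel))
theorem l3 : HoldsN X2 (Trg.right (Trg.left (Trg.left (chamberN 5 14)))) (Trg.left (Trg.left (Trg.left (chamberN 5 14)))) :=
  HoldsN.of_red (k := 16) (m := 16) (leaf ok2 (G326 _ rfl) (G214 _ rfl) (G257 _ rfl) (by decide +kernel))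
theorem l4 : HoldsN X2 (Trg.right (Trg.left (Trg.left (chamberN 5 14)))) (Trg.right (Trg.left (Trg.left (chamberN 5 14)))) :=
  HoldsN.of_red (k := 16) (m := 16) (leaf ok2 (G318 _ rfl) (G263 _ rfl) (G263 _ rfl) (by decide +kernel))
theorem l5 : HoldsN X2 (Trg.right (Trg.left (Trg.left (chamberN 5 14)))) (Trg.right (Trg.left (chamberN 5 14))) :=
  HoldsN.of_red (k := 16) (m := 16) (leaf ok2 (G326 _ rfl) (G216 _ rfl) (G216 _ rfl) (by decide +kernel))
theorem l6 : HoldsN X2 (Trg.right (Trg.left (chamberN 5 14))) (Trg.left (Trg.left (Trg.left (chamberN 5 14)))) :=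
  HoldsN.of_red (k := 16) (m := 16) (leaf ok2 (G363 _ rfl) (G163 _ rfl) (G195 _ rfl) (by decide +kernel))
theorem l7 : HoldsN X2 (Trg.right (Trg.left (chamberN 5 14))) (Trg.right (Trg.left (Trg.left (chamberN 5 14)))) :=
  HoldsN.of_red (k := 16) (m := 16) (leaf ok2 (G326 _ rfl) (G216 _ rfl) (G216 _ rfl) (by decide +kernel))
theorem l8 : HoldsN X2 (Trg.left (Trg.right (Trg.left (chamberN 5 14)))) (Trg.left (Trg.right (Trg.left (chamberN 5 14)))) :=
  HoldsN.of_red (k := 16) (m := 16) (leaf ok2 (G359 _ rfl) (G192 _ rfl) (G192 _ rfl) (by decide +kernel))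
theorem l9 : HoldsN X2 (Trg.left (Trg.right (Trg.left (chamberN 5 14)))) (Trg.right (Trg.right (Trg.left (chamberN 5 14)))) :=
  HoldsN.of_red (k := 16) (m := 16) (leaf ok2 (G361 _ rfl) (G162 _ rfl) (G242 _ rfl) (by decide +kernel))

end Vale.Agent.Lib.P154N.D8
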