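import Vale.Agent.Lib.P154N.D8.Data
import Vale.Agent.Lib.P154N.Red

/-!
# Leaves of the tree of triangles
-/

namespace Vale.Agent.Lib.P154N.D8

open Vale.Agent.Lib.P154K Vale.Agent.Lib.P154Neg

theorem l10 : HoldsN X2 (Trg.right (Trg.right (Trg.left (chamberN 5 14)))) (Trg.right (Trg.left (chamberN 5 14))) :=
  HoldsN.of_red (k := 16) (m := 16) (leaf ok2 (G363 _ rfl) (G182 _ rfl) (G163 _ rfl) (by decide +kernel))
theorem l11 : HoldsN X2 (Trg.left (chamberN 5 14)) (Trg.left (Trg.right (chamberN 5 14))) :=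
  HoldsN.of_red (k := 16) (m := 16) (leaf ok2 (G343 _ rfl) (G109 _ rfl) (G201 _ rfl) (by decide +kernel))
theorem l12 : HoldsN X2 (Trg.left (Trg.left (Trg.left (Trg.left (chamberN 5 14))))) (Trg.left (Trg.right (Trg.right (chamberN 5 14)))) :=
  HoldsN.of_red (k := 16) (m := 16) (leaf ok2 (G324 _ rfl) (G206 _ rfl) (G292 _ rfl) (by decide +kernel))
theorem l13 : HoldsN X2 (Trg.right (Trg.left (Trg.left (Trg.left (chamberN 5 14))))) (Trg.left (Trg.left (Trg.right (Trg.right (chamberN 5 14))))) :=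
  HoldsN.of_red (k := 16) (m := 16) (leaf ok2 (G360 _ rfl) (G177 _ rfl) (G252 _ rfl) (by decide +kernel))
theorem l14 : HoldsN X2 (Trg.right (Trg.left (Trg.left (Trg.left (chamberN 5 14))))) (Trg.right (Trg.left (Trg.right (Trg.right (chamberN 5 14))))) :=
  HoldsN.of_red (k := 16) (m := 16) (leaf ok2 (G326 _ rfl) (G237 _ rfl) (G253 _ rfl) (by decide +kernel))
theorem l15 : HoldsN X2 (Trg.left (Trg.left (Trg.left (chamberN 5 14)))) (Trg.right (Trg.right (Trg.right (chamberN 5 14)))) :=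
  HoldsN.of_red (k := 16) (m := 16) (leaf ok2 (G363 _ rfl) (G177 _ rfl) (G195 _ rfl) (by decide +kernel))
theorem l16 : HoldsN X2 (Trg.right (Trg.left (Trg.left (chamberN 5 14)))) (Trg.left (Trg.left (Trg.right (Trg.right (chamberN 5 14))))) :=
  HoldsN.of_red (k := 16) (m := 16) (leaf ok2 (G322 _ rfl) (G237 _ rfl) (G292 _ rfl) (by decide +kernel))
theorem l17 : HoldsN X2 (Trg.left (Trg.left (Trg.right (Trg.left (Trg.left (chamberN 5 14)))))) (Trg.right (Trg.left (Trg.right (Trg.right (chamberN 5 14))))) :=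
  HoldsN.of_red (k := 16) (m := 16) (leaf ok2 (G318 _ rfl) (G262 _ rfl) (G290 _ rfl) (by decide +kernel))
theorem l18 : HoldsN X2 (Trg.right (Trg.left (Trg.right (Trg.left (Trg.left (chamberN 5 14)))))) (Trg.right (Trg.left (Trg.right (Trg.right (chamberN 5 14))))) :=
  HoldsN.of_red (k := 16) (m := 16) (leaf ok2 (G315 _ rfl) (G289 _ rfl) (G309 _ rfl) (by decide +kernel))
theorem l19 : HoldsN X2 (Trg.right (Trg.right (Trg.left (Trg.left (chamberN 5 14))))) (Trg.right (Trg.left (Trg.right (Trg.right (chamberN 5 14))))) :=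
  HoldsN.of_red (k := 16) (m := 16) (leaf ok2 (G318 _ rfl) (G262 _ rfl) (G291 _ rfl) (by decide +kernel))

end Vale.Agent.Lib.P154N.D8
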