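import Vale.Agent.Lib.P154N.D8.Data
import Vale.Agent.Lib.P154N.Red

/-!
# Leaves of the tree of triangles
-/

namespace Vale.Agent.Lib.P154N.D8

open Vale.Agent.Lib.P154K Vale.Agent.Lib.P154Neg

theorem l100 : HoldsN X2 (Trg.right (Trg.left (Trg.right (Trg.right (Trg.left (chamberN 5 14)))))) (Trg.right (Trg.right (Trg.right (Trg.right (chamberNR 5 14))))) :=
  HoldsN.of_red (k := 16) (m := 16) (leaf ok2 (G377 _ rfl) (G160 _ rfl) (G264 _ rfl) (by decide +kernel))
theorem l101 : HoldsN X2 (Trg.right (Trg.right (Trg.right (Trg.left (chamberN 5 14))))) (Trg.right (Trg.right (Trg.right (chamberNR 5 14)))) :=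
  HoldsN.of_red (k := 16) (m := 16) (leaf ok2 (G325 _ rfl) (G139 _ rfl) (G321 _ rfl) (by decide +kernel))
theorem l102 : HoldsN X2 (Trg.left (Trg.left (Trg.right (chamberN 5 14)))) (Trg.left (Trg.left (Trg.left (Trg.left (chamberNR 5 14))))) :=
  HoldsN.of_red (k := 16) (m := 16) (leaf ok2 (G351 _ rfl) (G160 _ rfl) (G294 _ rfl) (by decide +kernel))
theorem l103 : HoldsN X2 (Trg.left (Trg.left (Trg.right (chamberN 5 14)))) (Trg.right (Trg.left (Trg.left (Trg.left (chamberNR 5 14))))) :=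
  HoldsN.of_red (k := 16) (m := 16) (leaf ok2 (G391 _ rfl) (G116 _ rfl) (G268 _ rfl) (by decide +kernel))
theorem l104 : HoldsN X2 (Trg.left (Trg.right (Trg.left (Trg.right (chamberN 5 14))))) (Trg.left (Trg.left (Trg.left (Trg.left (chamberNR 5 14))))) :=
  HoldsN.of_red (k := 16) (m := 16) (leaf ok2 (G362 _ rfl) (G130 _ rfl) (G269 _ rfl) (by decide +kernel))
theorem l105 : HoldsN X2 (Trg.left (Trg.right (Trg.left (Trg.right (chamberN 5 14))))) (Trg.right (Trg.left (Trg.left (Trg.left (chamberNR 5 14))))) :=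
  HoldsN.of_red (k := 16) (m := 16) (leaf ok2 (G402 _ rfl) (G104 _ rfl) (G240 _ rfl) (by decide +kernel))
theorem l106 : HoldsN X2 (Trg.right (Trg.right (Trg.left (Trg.right (chamberN 5 14))))) (Trg.left (Trg.left (Trg.left (chamberNR 5 14)))) :=
  HoldsN.of_red (k := 16) (m := 16) (leaf ok2 (G364 _ rfl) (G116 _ rfl) (G260 _ rfl) (by decide +kernel))
theorem l107 : HoldsN X2 (Trg.left (Trg.right (chamberN 5 14))) (Trg.right (Trg.left (Trg.left (chamberNR 5 14)))) :=
  HoldsN.of_red (k := 16) (m := 16) (leaf ok2 (G331 _ rfl) (G179 _ rfl) (G270 _ rfl) (by decide +kernel))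
theorem l108 : HoldsN X2 (Trg.left (Trg.left (Trg.right (chamberN 5 14)))) (Trg.left (Trg.right (Trg.left (chamberNR 5 14)))) :=
  HoldsN.of_red (k := 16) (m := 16) (leaf ok2 (G352 _ rfl) (G116 _ rfl) (G350 _ rfl) (by decide +kernel))
theorem l109 : HoldsN X2 (Trg.left (Trg.left (Trg.right (chamberN 5 14)))) (Trg.left (Trg.right (Trg.right (Trg.left (chamberNR 5 14))))) :=
  HoldsN.of_red (k := 16) (m := 16) (leaf ok2 (G398 _ rfl) (G115 _ rfl) (G271 _ rfl) (by decide +kernel))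

end Vale.Agent.Lib.P154N.D8
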