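import Vale.Agent.Lib.P154N.D8.Data
import Vale.Agent.Lib.P154N.Red

/-!
# Leaves of the tree of triangles
-/

namespace Vale.Agent.Lib.P154N.D8

open Vale.Agent.Lib.P154K Vale.Agent.Lib.P154Neg

theorem l1000 : HoldsN X8 (Trg.right (Trg.right (Trg.right (chamber 1 1)))) (Trg.left (Trg.right (chamberN 5 14))) :=
  HoldsN.of_red (k := 16) (m := 16) (leaf ok8 (G8 _ rfl) (G396 _ rfl) (G369 _ rfl) (by decide +kernel))
theorem l1001 : HoldsN X7 (Trg.left (Trg.left (Trg.right (Trg.right (chamber 1 1))))) (Trg.left (Trg.left (Trg.right (Trg.right (chamberN 5 14))))) :=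
  HoldsN.of_red (k := 16) (m := 16) (leaf ok7 (G76 _ rfl) (G353 _ rfl) (G353 _ rfl) (by decide +kernel))
theorem l1002 : HoldsN X8 (Trg.left (Trg.left (Trg.right (Trg.right (chamber 1 1))))) (Trg.left (Trg.left (Trg.right (Trg.right (chamberN 5 14))))) :=
  HoldsN.of_red (k := 16) (m := 16) (leaf ok8 (G76 _ rfl) (G353 _ rfl) (G353 _ rfl) (by decide +kernel))
theorem l1003 : HoldsN X7 (Trg.left (Trg.left (Trg.left (Trg.right (Trg.right (chamber 1 1)))))) (Trg.left (Trg.right (Trg.left (Trg.right (Trg.right (chamberN 5 14)))))) :=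
  HoldsN.of_red (k := 16) (m := 16) (leaf ok7 (G170 _ rfl) (G322 _ rfl) (G320 _ rfl) (by decide +kernel))
theorem l1004 : HoldsN X8 (Trg.left (Trg.left (Trg.left (Trg.right (Trg.right (chamber 1 1)))))) (Trg.left (Trg.right (Trg.left (Trg.right (Trg.right (chamberN 5 14)))))) :=
  HoldsN.of_red (k := 16) (m := 16) (leaf ok8 (G170 _ rfl) (G322 _ rfl) (G320 _ rfl) (by decide +kernel))
theorem l1005 : HoldsN X7 (Trg.right (Trg.left (Trg.left (Trg.right (Trg.right (chamber 1 1)))))) (Trg.left (Trg.right (Trg.left (Trg.right (Trg.right (chamberN 5 14)))))) :=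
  HoldsN.of_red (k := 16) (m := 16) (leaf ok7 (G142 _ rfl) (G322 _ rfl) (G322 _ rfl) (by decide +kernel))
theorem l1006 : HoldsN X8 (Trg.right (Trg.left (Trg.left (Trg.right (Trg.right (chamber 1 1)))))) (Trg.left (Trg.right (Trg.left (Trg.right (Trg.right (chamberN 5 14)))))) :=
  HoldsN.of_red (k := 16) (m := 16) (leaf ok8 (G142 _ rfl) (G322 _ rfl) (G322 _ rfl) (by decide +kernel))
theorem l1007 : HoldsN X7 (Trg.left (Trg.left (Trg.right (Trg.right (chamber 1 1))))) (Trg.right (Trg.right (Trg.left (Trg.right (Trg.right (chamberN 5 14)))))) :=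
  HoldsN.of_red (k := 16) (m := 16) (leaf ok7 (G117 _ rfl) (G321 _ rfl) (G353 _ rfl) (by decide +kernel))
theorem l1008 : HoldsN X8 (Trg.left (Trg.left (Trg.right (Trg.right (chamber 1 1))))) (Trg.right (Trg.right (Trg.left (Trg.right (Trg.right (chamberN 5 14)))))) :=
  HoldsN.of_red (k := 16) (m := 16) (leaf ok8 (G117 _ rfl) (G321 _ rfl) (G353 _ rfl) (by decide +kernel))
theorem l1009 : HoldsN X7 (Trg.right (Trg.left (Trg.right (Trg.right (chamber 1 1))))) (Trg.left (Trg.left (Trg.right (Trg.right (chamberN 5 14))))) :=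
  HoldsN.of_red (k := 16) (m := 16) (leaf ok7 (G121 _ rfl) (G332 _ rfl) (G322 _ rfl) (by decide +kernel))

end Vale.Agent.Lib.P154N.D8
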