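import Vale.Agent.Lib.P154N.D8.Data
import Vale.Agent.Lib.P154N.Red

/-!
# Leaves of the tree of triangles
-/

namespace Vale.Agent.Lib.P154N.D8

open Vale.Agent.Lib.P154K Vale.Agent.Lib.P154Neg

theorem l1010 : HoldsN X8 (Trg.right (Trg.left (Trg.right (Trg.right (chamber 1 1))))) (Trg.left (Trg.left (Trg.right (Trg.right (chamberN 5 14))))) :=
  HoldsN.of_red (k := 16) (m := 16) (leaf ok8 (G121 _ rfl) (G332 _ rfl) (G322 _ rfl) (by decide +kernel))
theorem l1011 : HoldsN X7 (Trg.left (Trg.right (Trg.left (Trg.right (Trg.right (chamber 1 1)))))) (Trg.left (Trg.right (Trg.left (Trg.right (Trg.right (chamberN 5 14)))))) :=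
  HoldsN.of_red (k := 16) (m := 16) (leaf ok7 (G212 _ rfl) (G316 _ rfl) (G316 _ rfl) (by decide +kernel))
theorem l1012 : HoldsN X8 (Trg.left (Trg.right (Trg.left (Trg.right (Trg.right (chamber 1 1)))))) (Trg.left (Trg.right (Trg.left (Trg.right (Trg.right (chamberN 5 14)))))) :=
  HoldsN.of_red (k := 16) (m := 16) (leaf ok8 (G212 _ rfl) (G316 _ rfl) (G316 _ rfl) (by decide +kernel))
theorem l1013 : HoldsN X7 (Trg.left (Trg.right (Trg.left (Trg.right (Trg.right (chamber 1 1)))))) (Trg.right (Trg.right (Trg.left (Trg.right (Trg.right (chamberN 5 14)))))) :=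
  HoldsN.of_red (k := 16) (m := 16) (leaf ok7 (G193 _ rfl) (G316 _ rfl) (G322 _ rfl) (by decide +kernel))
theorem l1014 : HoldsN X8 (Trg.left (Trg.right (Trg.left (Trg.right (Trg.right (chamber 1 1)))))) (Trg.right (Trg.right (Trg.left (Trg.right (Trg.right (chamberN 5 14)))))) :=
  HoldsN.of_red (k := 16) (m := 16) (leaf ok8 (G193 _ rfl) (G316 _ rfl) (G322 _ rfl) (by decide +kernel))
theorem l1015 : HoldsN X7 (Trg.right (Trg.right (Trg.left (Trg.right (Trg.right (chamber 1 1)))))) (Trg.right (Trg.left (Trg.right (Trg.right (chamberN 5 14))))) :=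
  HoldsN.of_red (k := 16) (m := 16) (leaf ok7 (G170 _ rfl) (G322 _ rfl) (G322 _ rfl) (by decide +kernel))
theorem l1016 : HoldsN X8 (Trg.right (Trg.right (Trg.left (Trg.right (Trg.right (chamber 1 1)))))) (Trg.right (Trg.left (Trg.right (Trg.right (chamberN 5 14))))) :=
  HoldsN.of_red (k := 16) (m := 16) (leaf ok8 (G170 _ rfl) (G322 _ rfl) (G322 _ rfl) (by decide +kernel))
theorem l1017 : HoldsN X7 (Trg.left (Trg.right (Trg.right (chamber 1 1)))) (Trg.right (Trg.right (Trg.right (chamberN 5 14)))) :=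
  HoldsN.of_red (k := 16) (m := 16) (leaf ok7 (G67 _ rfl) (G332 _ rfl) (G344 _ rfl) (by decide +kernel))
theorem l1018 : HoldsN X8 (Trg.left (Trg.right (Trg.right (chamber 1 1)))) (Trg.right (Trg.right (Trg.right (chamberN 5 14)))) :=
  HoldsN.of_red (k := 16) (m := 16) (leaf ok8 (G67 _ rfl) (G332 _ rfl) (G344 _ rfl) (by decide +kernel))
theorem l1019 : HoldsN X7 (Trg.right (Trg.right (Trg.right (chamber 1 1)))) (Trg.left (Trg.left (Trg.right (Trg.right (chamberN 5 14))))) :=
  HoldsN.of_red (k := 16) (m := 16) (leaf ok7 (G64 _ rfl) (G369 _ rfl) (G353 _ rfl) (by decide +kernel))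

end Vale.Agent.Lib.P154N.D8
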