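import Vale.Agent.Lib.P154N.D8.Data
import Vale.Agent.Lib.P154N.Red

/-!
# Leaves of the tree of triangles
-/

namespace Vale.Agent.Lib.P154N.D8

open Vale.Agent.Lib.P154K Vale.Agent.Lib.P154Neg

theorem l1040 : HoldsN X8 (Trg.left (Trg.right (Trg.left (chamber 1 1)))) (Trg.right (Trg.left (chamberNR 5 14))) :=
  HoldsN.of_red (k := 16) (m := 16) (leaf ok8 (G95 _ rfl) (G371 _ rfl) (G76 _ rfl) (by decide +kernel))
theorem l1041 : HoldsN X7 (Trg.right (Trg.right (Trg.left (chamber 1 1)))) (Trg.right (Trg.left (chamberNR 5 14))) :=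
  HoldsN.of_red (k := 16) (m := 16) (leaf ok7 (G55 _ rfl) (G373 _ rfl) (G76 _ rfl) (by decide +kernel))
theorem l1042 : HoldsN X8 (Trg.right (Trg.right (Trg.left (chamber 1 1)))) (Trg.right (Trg.left (chamberNR 5 14))) :=
  HoldsN.of_red (k := 16) (m := 16) (leaf ok8 (G55 _ rfl) (G373 _ rfl) (G76 _ rfl) (by decide +kernel))
theorem l1043 : HoldsN X7 (Trg.left (Trg.left (Trg.left (Trg.left (chamber 1 1))))) (Trg.left (Trg.right (chamberNR 5 14))) :=
  HoldsN.of_red (k := 16) (m := 16) (leaf ok7 (G46 _ rfl) (G430 _ rfl) (G148 _ rfl) (by decide +kernel))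
theorem l1044 : HoldsN X8 (Trg.left (Trg.left (Trg.left (Trg.left (chamber 1 1))))) (Trg.left (Trg.right (chamberNR 5 14))) :=
  HoldsN.of_red (k := 16) (m := 16) (leaf ok8 (G46 _ rfl) (G430 _ rfl) (G148 _ rfl) (by decide +kernel))
theorem l1045 : HoldsN X7 (Trg.right (Trg.left (Trg.left (Trg.left (chamber 1 1))))) (Trg.left (Trg.left (Trg.right (chamberNR 5 14)))) :=
  HoldsN.of_red (k := 16) (m := 16) (leaf ok7 (G23 _ rfl) (G433 _ rfl) (G186 _ rfl) (by decide +kernel))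
theorem l1046 : HoldsN X8 (Trg.right (Trg.left (Trg.left (Trg.left (chamber 1 1))))) (Trg.left (Trg.left (Trg.right (chamberNR 5 14)))) :=
  HoldsN.of_red (k := 16) (m := 16) (leaf ok8 (G23 _ rfl) (G433 _ rfl) (G186 _ rfl) (by decide +kernel))
theorem l1047 : HoldsN X7 (Trg.right (Trg.left (Trg.left (Trg.left (chamber 1 1))))) (Trg.left (Trg.right (Trg.left (Trg.right (chamberNR 5 14))))) :=
  HoldsN.of_red (k := 16) (m := 16) (leaf ok7 (G7 _ rfl) (G452 _ rfl) (G250 _ rfl) (by decide +kernel))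
theorem l1048 : HoldsN X8 (Trg.right (Trg.left (Trg.left (Trg.left (chamber 1 1))))) (Trg.left (Trg.right (Trg.left (Trg.right (chamberNR 5 14))))) :=
  HoldsN.of_red (k := 16) (m := 16) (leaf ok8 (G7 _ rfl) (G452 _ rfl) (G250 _ rfl) (by decide +kernel))
theorem l1049 : HoldsN X7 (Trg.right (Trg.left (Trg.left (Trg.left (chamber 1 1))))) (Trg.right (Trg.right (Trg.left (Trg.right (chamberNR 5 14))))) :=
  HoldsN.of_red (k := 16) (m := 16) (leaf ok7 (G23 _ rfl) (G433 _ rfl) (G246 _ rfl) (by decide +kernel))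

end Vale.Agent.Lib.P154N.D8
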