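import Vale.Agent.Lib.P154N.D8.Data
import Vale.Agent.Lib.P154N.Red

/-!
# Leaves of the tree of triangles
-/

namespace Vale.Agent.Lib.P154N.D8

open Vale.Agent.Lib.P154K Vale.Agent.Lib.P154Neg

theorem l1060 : HoldsN X8 (Trg.left (Trg.left (Trg.right (Trg.left (chamber 1 1))))) (Trg.left (Trg.right (Trg.left (Trg.right (chamberNR 5 14))))) :=
  HoldsN.of_red (k := 16) (m := 16) (leaf ok8 (G32 _ rfl) (G452 _ rfl) (G97 _ rfl) (by decide +kernel))
theorem l1061 : HoldsN X7 (Trg.right (Trg.left (Trg.right (Trg.left (chamber 1 1))))) (Trg.left (Trg.right (Trg.left (Trg.right (chamberNR 5 14))))) :=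
  HoldsN.of_red (k := 16) (m := 16) (leaf ok7 (G30 _ rfl) (G463 _ rfl) (G77 _ rfl) (by decide +kernel))
theorem l1062 : HoldsN X8 (Trg.right (Trg.left (Trg.right (Trg.left (chamber 1 1))))) (Trg.left (Trg.right (Trg.left (Trg.right (chamberNR 5 14))))) :=
  HoldsN.of_red (k := 16) (m := 16) (leaf ok8 (G30 _ rfl) (G463 _ rfl) (G77 _ rfl) (by decide +kernel))
theorem l1063 : HoldsN X7 (Trg.left (Trg.left (Trg.right (Trg.left (chamber 1 1))))) (Trg.right (Trg.right (Trg.left (Trg.right (chamberNR 5 14))))) :=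
  HoldsN.of_red (k := 16) (m := 16) (leaf ok7 (G60 _ rfl) (G432 _ rfl) (G98 _ rfl) (by decide +kernel))
theorem l1064 : HoldsN X8 (Trg.left (Trg.left (Trg.right (Trg.left (chamber 1 1))))) (Trg.right (Trg.right (Trg.left (Trg.right (chamberNR 5 14))))) :=
  HoldsN.of_red (k := 16) (m := 16) (leaf ok8 (G60 _ rfl) (G432 _ rfl) (G98 _ rfl) (by decide +kernel))
theorem l1065 : HoldsN X7 (Trg.right (Trg.left (Trg.right (Trg.left (chamber 1 1))))) (Trg.left (Trg.right (Trg.right (Trg.left (Trg.right (chamberNR 5 14)))))) :=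
  HoldsN.of_red (k := 16) (m := 16) (leaf ok7 (G58 _ rfl) (G448 _ rfl) (G98 _ rfl) (by decide +kernel))
theorem l1066 : HoldsN X8 (Trg.right (Trg.left (Trg.right (Trg.left (chamber 1 1))))) (Trg.left (Trg.right (Trg.right (Trg.left (Trg.right (chamberNR 5 14)))))) :=
  HoldsN.of_red (k := 16) (m := 16) (leaf ok8 (G58 _ rfl) (G448 _ rfl) (G98 _ rfl) (by decide +kernel))
theorem l1067 : HoldsN X7 (Trg.right (Trg.left (Trg.right (Trg.left (chamber 1 1))))) (Trg.right (Trg.right (Trg.right (Trg.left (Trg.right (chamberNR 5 14)))))) :=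
  HoldsN.of_red (k := 16) (m := 16) (leaf ok7 (G57 _ rfl) (G461 _ rfl) (G77 _ rfl) (by decide +kernel))
theorem l1068 : HoldsN X8 (Trg.right (Trg.left (Trg.right (Trg.left (chamber 1 1))))) (Trg.right (Trg.right (Trg.right (Trg.left (Trg.right (chamberNR 5 14)))))) :=
  HoldsN.of_red (k := 16) (m := 16) (leaf ok8 (G57 _ rfl) (G461 _ rfl) (G77 _ rfl) (by decide +kernel))
theorem l1069 : HoldsN X7 (Trg.left (Trg.right (Trg.right (Trg.left (chamber 1 1))))) (Trg.left (Trg.left (Trg.left (Trg.left (Trg.right (chamberNR 5 14)))))) :=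
  HoldsN.of_red (k := 16) (m := 16) (leaf ok7 (G22 _ rfl) (G458 _ rfl) (G172 _ rfl) (by decide +kernel))

end Vale.Agent.Lib.P154N.D8
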