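import Vale.Agent.Lib.P154N.D8.Data
import Vale.Agent.Lib.P154N.Red

/-!
# Leaves of the tree of triangles
-/

namespace Vale.Agent.Lib.P154N.D8

open Vale.Agent.Lib.P154K Vale.Agent.Lib.P154Neg

theorem l1070 : HoldsN X8 (Trg.left (Trg.right (Trg.right (Trg.left (chamber 1 1))))) (Trg.left (Trg.left (Trg.left (Trg.left (Trg.right (chamberNR 5 14)))))) :=
  HoldsN.of_red (k := 16) (m := 16) (leaf ok8 (G22 _ rfl) (G458 _ rfl) (G172 _ rfl) (by decide +kernel))
theorem l1071 : HoldsN X7 (Trg.left (Trg.right (Trg.right (Trg.left (chamber 1 1))))) (Trg.right (Trg.left (Trg.left (Trg.left (Trg.right (chamberNR 5 14)))))) :=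
  HoldsN.of_red (k := 16) (m := 16) (leaf ok7 (G38 _ rfl) (G446 _ rfl) (G186 _ rfl) (by decide +kernel))
theorem l1072 : HoldsN X8 (Trg.left (Trg.right (Trg.right (Trg.left (chamber 1 1))))) (Trg.right (Trg.left (Trg.left (Trg.left (Trg.right (chamberNR 5 14)))))) :=
  HoldsN.of_red (k := 16) (m := 16) (leaf ok8 (G38 _ rfl) (G446 _ rfl) (G186 _ rfl) (by decide +kernel))
theorem l1073 : HoldsN X7 (Trg.left (Trg.right (Trg.right (Trg.left (chamber 1 1))))) (Trg.right (Trg.left (Trg.left (Trg.right (chamberNR 5 14))))) :=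
  HoldsN.of_red (k := 16) (m := 16) (leaf ok7 (G22 _ rfl) (G458 _ rfl) (G123 _ rfl) (by decide +kernel))
theorem l1074 : HoldsN X8 (Trg.left (Trg.right (Trg.right (Trg.left (chamber 1 1))))) (Trg.right (Trg.left (Trg.left (Trg.right (chamberNR 5 14))))) :=
  HoldsN.of_red (k := 16) (m := 16) (leaf ok8 (G22 _ rfl) (G458 _ rfl) (G123 _ rfl) (by decide +kernel))
theorem l1075 : HoldsN X7 (Trg.left (Trg.right (Trg.right (Trg.left (chamber 1 1))))) (Trg.left (Trg.right (Trg.left (Trg.right (chamberNR 5 14))))) :=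
  HoldsN.of_red (k := 16) (m := 16) (leaf ok7 (G6 _ rfl) (G463 _ rfl) (G174 _ rfl) (by decide +kernel))
theorem l1076 : HoldsN X8 (Trg.left (Trg.right (Trg.right (Trg.left (chamber 1 1))))) (Trg.left (Trg.right (Trg.left (Trg.right (chamberNR 5 14))))) :=
  HoldsN.of_red (k := 16) (m := 16) (leaf ok8 (G6 _ rfl) (G463 _ rfl) (G174 _ rfl) (by decide +kernel))
theorem l1077 : HoldsN X7 (Trg.left (Trg.left (Trg.right (Trg.right (Trg.left (chamber 1 1)))))) (Trg.left (Trg.right (Trg.right (Trg.left (Trg.right (chamberNR 5 14)))))) :=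
  HoldsN.of_red (k := 16) (m := 16) (leaf ok7 (G38 _ rfl) (G448 _ rfl) (G207 _ rfl) (by decide +kernel))
theorem l1078 : HoldsN X8 (Trg.left (Trg.left (Trg.right (Trg.right (Trg.left (chamber 1 1)))))) (Trg.left (Trg.right (Trg.right (Trg.left (Trg.right (chamberNR 5 14)))))) :=
  HoldsN.of_red (k := 16) (m := 16) (leaf ok8 (G38 _ rfl) (G448 _ rfl) (G207 _ rfl) (by decide +kernel))
theorem l1079 : HoldsN X7 (Trg.right (Trg.left (Trg.right (Trg.right (Trg.left (chamber 1 1)))))) (Trg.left (Trg.right (Trg.right (Trg.left (Trg.right (chamberNR 5 14)))))) :=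
  HoldsN.of_red (k := 16) (m := 16) (leaf ok7 (G27 _ rfl) (G448 _ rfl) (G276 _ rfl) (by decide +kernel))

end Vale.Agent.Lib.P154N.D8
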