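import Vale.Agent.Lib.P154N.D8.Data
import Vale.Agent.Lib.P154N.Red

/-!
# Leaves of the tree of triangles
-/

namespace Vale.Agent.Lib.P154N.D8

open Vale.Agent.Lib.P154K Vale.Agent.Lib.P154Neg

theorem l1080 : HoldsN X8 (Trg.right (Trg.left (Trg.right (Trg.right (Trg.left (chamber 1 1)))))) (Trg.left (Trg.right (Trg.right (Trg.left (Trg.right (chamberNR 5 14)))))) :=
  HoldsN.of_red (k := 16) (m := 16) (leaf ok8 (G27 _ rfl) (G448 _ rfl) (G276 _ rfl) (by decide +kernel))
theorem l1081 : HoldsN X7 (Trg.left (Trg.right (Trg.right (Trg.left (chamber 1 1))))) (Trg.right (Trg.right (Trg.right (Trg.left (Trg.right (chamberNR 5 14)))))) :=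
  HoldsN.of_red (k := 16) (m := 16) (leaf ok7 (G21 _ rfl) (G462 _ rfl) (G173 _ rfl) (by decide +kernel))
theorem l1082 : HoldsN X8 (Trg.left (Trg.right (Trg.right (Trg.left (chamber 1 1))))) (Trg.right (Trg.right (Trg.right (Trg.left (Trg.right (chamberNR 5 14)))))) :=
  HoldsN.of_red (k := 16) (m := 16) (leaf ok8 (G21 _ rfl) (G462 _ rfl) (G173 _ rfl) (by decide +kernel))
theorem l1083 : HoldsN X7 (Trg.right (Trg.right (Trg.right (Trg.left (chamber 1 1))))) (Trg.left (Trg.left (Trg.right (chamberNR 5 14)))) :=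
  HoldsN.of_red (k := 16) (m := 16) (leaf ok7 (G62 _ rfl) (G432 _ rfl) (G120 _ rfl) (by decide +kernel))
theorem l1084 : HoldsN X8 (Trg.right (Trg.right (Trg.right (Trg.left (chamber 1 1))))) (Trg.left (Trg.left (Trg.right (chamberNR 5 14)))) :=
  HoldsN.of_red (k := 16) (m := 16) (leaf ok8 (G62 _ rfl) (G432 _ rfl) (G120 _ rfl) (by decide +kernel))
theorem l1085 : HoldsN X7 (Trg.right (Trg.right (Trg.right (Trg.left (chamber 1 1))))) (Trg.left (Trg.right (Trg.left (Trg.right (chamberNR 5 14))))) :=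
  HoldsN.of_red (k := 16) (m := 16) (leaf ok7 (G32 _ rfl) (G452 _ rfl) (G141 _ rfl) (by decide +kernel))
theorem l1086 : HoldsN X8 (Trg.right (Trg.right (Trg.right (Trg.left (chamber 1 1))))) (Trg.left (Trg.right (Trg.left (Trg.right (chamberNR 5 14))))) :=
  HoldsN.of_red (k := 16) (m := 16) (leaf ok8 (G32 _ rfl) (G452 _ rfl) (G141 _ rfl) (by decide +kernel))
theorem l1087 : HoldsN X7 (Trg.right (Trg.right (Trg.right (Trg.left (chamber 1 1))))) (Trg.right (Trg.right (Trg.left (Trg.right (chamberNR 5 14))))) :=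
  HoldsN.of_red (k := 16) (m := 16) (leaf ok7 (G60 _ rfl) (G432 _ rfl) (G141 _ rfl) (by decide +kernel))
theorem l1088 : HoldsN X8 (Trg.right (Trg.right (Trg.right (Trg.left (chamber 1 1))))) (Trg.right (Trg.right (Trg.left (Trg.right (chamberNR 5 14))))) :=
  HoldsN.of_red (k := 16) (m := 16) (leaf ok8 (G60 _ rfl) (G432 _ rfl) (G141 _ rfl) (by decide +kernel))
theorem l1089 : HoldsN X7 (Trg.left (Trg.left (Trg.left (chamber 1 1)))) (Trg.left (Trg.right (Trg.right (chamberNR 5 14)))) :=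
  HoldsN.of_red (k := 16) (m := 16) (leaf ok7 (G67 _ rfl) (G344 _ rfl) (G223 _ rfl) (by decide +kernel))

end Vale.Agent.Lib.P154N.D8
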