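import Vale.Agent.Lib.P154N.D8.Data
import Vale.Agent.Lib.P154N.Red

/-!
# Leaves of the tree of triangles
-/

namespace Vale.Agent.Lib.P154N.D8

open Vale.Agent.Lib.P154K Vale.Agent.Lib.P154Neg

theorem l1090 : HoldsN X8 (Trg.left (Trg.left (Trg.left (chamber 1 1)))) (Trg.left (Trg.right (Trg.right (chamberNR 5 14)))) :=
  HoldsN.of_red (k := 16) (m := 16) (leaf ok8 (G67 _ rfl) (G344 _ rfl) (G223 _ rfl) (by decide +kernel))
theorem l1091 : HoldsN X7 (Trg.left (Trg.left (Trg.left (chamber 1 1)))) (Trg.right (Trg.right (Trg.right (chamberNR 5 14)))) :=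
  HoldsN.of_red (k := 16) (m := 16) (leaf ok7 (G53 _ rfl) (G409 _ rfl) (G148 _ rfl) (by decide +kernel))
theorem l1092 : HoldsN X8 (Trg.left (Trg.left (Trg.left (chamber 1 1)))) (Trg.right (Trg.right (Trg.right (chamberNR 5 14)))) :=
  HoldsN.of_red (k := 16) (m := 16) (leaf ok8 (G53 _ rfl) (G409 _ rfl) (G148 _ rfl) (by decide +kernel))
theorem l1093 : HoldsN X7 (Trg.right (Trg.left (Trg.left (chamber 1 1)))) (Trg.right (Trg.right (chamberNR 5 14))) :=
  HoldsN.of_red (k := 16) (m := 16) (leaf ok7 (G112 _ rfl) (G341 _ rfl) (G145 _ rfl) (by decide +kernel))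
theorem l1094 : HoldsN X8 (Trg.right (Trg.left (Trg.left (chamber 1 1)))) (Trg.right (Trg.right (chamberNR 5 14))) :=
  HoldsN.of_red (k := 16) (m := 16) (leaf ok8 (G112 _ rfl) (G341 _ rfl) (G145 _ rfl) (by decide +kernel))
theorem l1095 : HoldsN X7 (Trg.left (Trg.left (Trg.right (Trg.left (chamber 1 1))))) (Trg.left (Trg.left (Trg.right (Trg.right (chamberNR 5 14))))) :=
  HoldsN.of_red (k := 16) (m := 16) (leaf ok7 (G92 _ rfl) (G393 _ rfl) (G177 _ rfl) (by decide +kernel))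
theorem l1096 : HoldsN X8 (Trg.left (Trg.left (Trg.right (Trg.left (chamber 1 1))))) (Trg.left (Trg.left (Trg.right (Trg.right (chamberNR 5 14))))) :=
  HoldsN.of_red (k := 16) (m := 16) (leaf ok8 (G92 _ rfl) (G393 _ rfl) (G177 _ rfl) (by decide +kernel))
theorem l1097 : HoldsN X7 (Trg.right (Trg.left (Trg.right (Trg.left (chamber 1 1))))) (Trg.left (Trg.left (Trg.right (Trg.right (chamberNR 5 14))))) :=
  HoldsN.of_red (k := 16) (m := 16) (leaf ok7 (G91 _ rfl) (G410 _ rfl) (G140 _ rfl) (by decide +kernel))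
theorem l1098 : HoldsN X8 (Trg.right (Trg.left (Trg.right (Trg.left (chamber 1 1))))) (Trg.left (Trg.left (Trg.right (Trg.right (chamberNR 5 14))))) :=
  HoldsN.of_red (k := 16) (m := 16) (leaf ok8 (G91 _ rfl) (G410 _ rfl) (G140 _ rfl) (by decide +kernel))
theorem l1099 : HoldsN X7 (Trg.left (Trg.right (Trg.left (chamber 1 1)))) (Trg.right (Trg.left (Trg.right (Trg.right (chamberNR 5 14))))) :=
  HoldsN.of_red (k := 16) (m := 16) (leaf ok7 (G170 _ rfl) (G339 _ rfl) (G142 _ rfl) (by decide +kernel))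

end Vale.Agent.Lib.P154N.D8
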