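import Vale.Agent.Lib.P154N.D8.Data
import Vale.Agent.Lib.P154N.Red

/-!
# Leaves of the tree of triangles
-/

namespace Vale.Agent.Lib.P154N.D8

open Vale.Agent.Lib.P154K Vale.Agent.Lib.P154Neg

theorem l110 : HoldsN X2 (Trg.left (Trg.left (Trg.right (chamberN 5 14)))) (Trg.right (Trg.right (Trg.right (Trg.left (chamberNR 5 14))))) :=
  HoldsN.of_red (k := 16) (m := 16) (leaf ok2 (G352 _ rfl) (G116 _ rfl) (G321 _ rfl) (by decide +kernel))
theorem l111 : HoldsN X2 (Trg.left (Trg.right (Trg.left (Trg.right (chamberN 5 14))))) (Trg.left (Trg.right (Trg.left (chamberNR 5 14)))) :=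
  HoldsN.of_red (k := 16) (m := 16) (leaf ok2 (G363 _ rfl) (G104 _ rfl) (G350 _ rfl) (by decide +kernel))
theorem l112 : HoldsN X2 (Trg.left (Trg.right (Trg.left (Trg.right (chamberN 5 14))))) (Trg.left (Trg.right (Trg.right (Trg.left (chamberNR 5 14))))) :=
  HoldsN.of_red (k := 16) (m := 16) (leaf ok2 (G416 _ rfl) (G103 _ rfl) (G243 _ rfl) (by decide +kernel))
theorem l113 : HoldsN X2 (Trg.left (Trg.right (Trg.left (Trg.right (chamberN 5 14))))) (Trg.right (Trg.right (Trg.right (Trg.left (chamberNR 5 14))))) :=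
  HoldsN.of_red (k := 16) (m := 16) (leaf ok2 (G363 _ rfl) (G104 _ rfl) (G319 _ rfl) (by decide +kernel))
theorem l114 : HoldsN X2 (Trg.right (Trg.right (Trg.left (Trg.right (chamberN 5 14))))) (Trg.left (Trg.right (Trg.left (chamberNR 5 14)))) :=
  HoldsN.of_red (k := 16) (m := 16) (leaf ok2 (G360 _ rfl) (G116 _ rfl) (G350 _ rfl) (by decide +kernel))
theorem l115 : HoldsN X2 (Trg.right (Trg.right (Trg.left (Trg.right (chamberN 5 14))))) (Trg.right (Trg.right (Trg.left (chamberNR 5 14)))) :=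
  HoldsN.of_red (k := 16) (m := 16) (leaf ok2 (G364 _ rfl) (G116 _ rfl) (G260 _ rfl) (by decide +kernel))
theorem l116 : HoldsN X2 (Trg.left (Trg.right (chamberN 5 14))) (Trg.left (Trg.right (chamberNR 5 14))) :=
  HoldsN.of_red (k := 16) (m := 16) (leaf ok2 (G414 _ rfl) (G106 _ rfl) (G110 _ rfl) (by decide +kernel))
theorem l117 : HoldsN X2 (Trg.left (Trg.left (Trg.right (chamberN 5 14)))) (Trg.left (Trg.left (Trg.right (Trg.right (chamberNR 5 14))))) :=
  HoldsN.of_red (k := 16) (m := 16) (leaf ok2 (G386 _ rfl) (G176 _ rfl) (G215 _ rfl) (by decide +kernel))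
theorem l118 : HoldsN X2 (Trg.left (Trg.left (Trg.right (chamberN 5 14)))) (Trg.right (Trg.left (Trg.right (Trg.right (chamberNR 5 14))))) :=
  HoldsN.of_red (k := 16) (m := 16) (leaf ok2 (G326 _ rfl) (G193 _ rfl) (G265 _ rfl) (by decide +kernel))
theorem l119 : HoldsN X2 (Trg.left (Trg.left (Trg.right (Trg.left (Trg.right (chamberN 5 14)))))) (Trg.left (Trg.left (Trg.right (Trg.right (chamberNR 5 14))))) :=
  HoldsN.of_red (k := 16) (m := 16) (leaf ok2 (G397 _ rfl) (G175 _ rfl) (G205 _ rfl) (by decide +kernel))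

end Vale.Agent.Lib.P154N.D8
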