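import Vale.Agent.Lib.P154N.D8.Data
import Vale.Agent.Lib.P154N.Red

/-!
# Leaves of the tree of triangles
-/

namespace Vale.Agent.Lib.P154N.D8

open Vale.Agent.Lib.P154K Vale.Agent.Lib.P154Neg

theorem l1110 : HoldsN X8 (Trg.left (Trg.left (Trg.right (Trg.left (chamber 1 1))))) (Trg.right (Trg.right (Trg.right (chamberNR 5 14)))) :=
  HoldsN.of_red (k := 16) (m := 16) (leaf ok8 (G92 _ rfl) (G408 _ rfl) (G98 _ rfl) (by decide +kernel))
theorem l1111 : HoldsN X7 (Trg.right (Trg.left (Trg.right (Trg.left (chamber 1 1))))) (Trg.right (Trg.right (Trg.right (chamberNR 5 14)))) :=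
  HoldsN.of_red (k := 16) (m := 16) (leaf ok7 (G91 _ rfl) (G423 _ rfl) (G78 _ rfl) (by decide +kernel))
theorem l1112 : HoldsN X8 (Trg.right (Trg.left (Trg.right (Trg.left (chamber 1 1))))) (Trg.right (Trg.right (Trg.right (chamberNR 5 14)))) :=
  HoldsN.of_red (k := 16) (m := 16) (leaf ok8 (G91 _ rfl) (G423 _ rfl) (G78 _ rfl) (by decide +kernel))
theorem l1113 : HoldsN X7 (Trg.right (Trg.right (Trg.left (chamber 1 1)))) (Trg.right (Trg.right (Trg.right (chamberNR 5 14)))) :=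
  HoldsN.of_red (k := 16) (m := 16) (leaf ok7 (G53 _ rfl) (G409 _ rfl) (G124 _ rfl) (by decide +kernel))
theorem l1114 : HoldsN X8 (Trg.right (Trg.right (Trg.left (chamber 1 1)))) (Trg.right (Trg.right (Trg.right (chamberNR 5 14)))) :=
  HoldsN.of_red (k := 16) (m := 16) (leaf ok8 (G53 _ rfl) (G409 _ rfl) (G124 _ rfl) (by decide +kernel))
theorem l1115 : HoldsN X7 (Trg.left (Trg.left (Trg.right (chamber 1 1)))) (Trg.left (Trg.left (Trg.left (Trg.left (chamberNR 5 14))))) :=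
  HoldsN.of_red (k := 16) (m := 16) (leaf ok7 (G72 _ rfl) (G429 _ rfl) (G144 _ rfl) (by decide +kernel))
theorem l1116 : HoldsN X8 (Trg.left (Trg.left (Trg.right (chamber 1 1)))) (Trg.left (Trg.left (Trg.left (Trg.left (chamberNR 5 14))))) :=
  HoldsN.of_red (k := 16) (m := 16) (leaf ok8 (G72 _ rfl) (G429 _ rfl) (G144 _ rfl) (by decide +kernel))
theorem l1117 : HoldsN X7 (Trg.left (Trg.left (Trg.right (chamber 1 1)))) (Trg.right (Trg.left (Trg.left (Trg.left (chamberNR 5 14))))) :=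
  HoldsN.of_red (k := 16) (m := 16) (leaf ok7 (G23 _ rfl) (G433 _ rfl) (G186 _ rfl) (by decide +kernel))
theorem l1118 : HoldsN X8 (Trg.left (Trg.left (Trg.right (chamber 1 1)))) (Trg.right (Trg.left (Trg.left (Trg.left (chamberNR 5 14))))) :=
  HoldsN.of_red (k := 16) (m := 16) (leaf ok8 (G23 _ rfl) (G433 _ rfl) (G186 _ rfl) (by decide +kernel))
theorem l1119 : HoldsN X7 (Trg.left (Trg.right (Trg.left (Trg.right (chamber 1 1))))) (Trg.left (Trg.left (Trg.left (Trg.left (chamberNR 5 14))))) :=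
  HoldsN.of_red (k := 16) (m := 16) (leaf ok7 (G44 _ rfl) (G448 _ rfl) (G148 _ rfl) (by decide +kernel))

end Vale.Agent.Lib.P154N.D8
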