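import Vale.Agent.Lib.P154N.D8.Data
import Vale.Agent.Lib.P154N.Red

/-!
# Leaves of the tree of triangles
-/

namespace Vale.Agent.Lib.P154N.D8

open Vale.Agent.Lib.P154K Vale.Agent.Lib.P154Neg

theorem l1130 : HoldsN X8 (Trg.left (Trg.left (Trg.right (chamber 1 1)))) (Trg.right (Trg.right (Trg.left (chamberNR 5 14)))) :=
  HoldsN.of_red (k := 16) (m := 16) (leaf ok8 (G25 _ rfl) (G433 _ rfl) (G124 _ rfl) (by decide +kernel))
theorem l1131 : HoldsN X7 (Trg.left (Trg.right (Trg.left (Trg.right (chamber 1 1))))) (Trg.left (Trg.right (Trg.left (chamberNR 5 14)))) :=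
  HoldsN.of_red (k := 16) (m := 16) (leaf ok7 (G32 _ rfl) (G452 _ rfl) (G77 _ rfl) (by decide +kernel))
theorem l1132 : HoldsN X8 (Trg.left (Trg.right (Trg.left (Trg.right (chamber 1 1))))) (Trg.left (Trg.right (Trg.left (chamberNR 5 14)))) :=
  HoldsN.of_red (k := 16) (m := 16) (leaf ok8 (G32 _ rfl) (G452 _ rfl) (G77 _ rfl) (by decide +kernel))
theorem l1133 : HoldsN X7 (Trg.left (Trg.right (Trg.left (Trg.right (chamber 1 1))))) (Trg.left (Trg.right (Trg.right (Trg.left (chamberNR 5 14))))) :=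
  HoldsN.of_red (k := 16) (m := 16) (leaf ok7 (G6 _ rfl) (G463 _ rfl) (G174 _ rfl) (by decide +kernel))
theorem l1134 : HoldsN X8 (Trg.left (Trg.right (Trg.left (Trg.right (chamber 1 1))))) (Trg.left (Trg.right (Trg.right (Trg.left (chamberNR 5 14))))) :=
  HoldsN.of_red (k := 16) (m := 16) (leaf ok8 (G6 _ rfl) (G463 _ rfl) (G174 _ rfl) (by decide +kernel))
theorem l1135 : HoldsN X7 (Trg.left (Trg.right (Trg.left (Trg.right (chamber 1 1))))) (Trg.right (Trg.right (Trg.right (Trg.left (chamberNR 5 14))))) :=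
  HoldsN.of_red (k := 16) (m := 16) (leaf ok7 (G32 _ rfl) (G452 _ rfl) (G141 _ rfl) (by decide +kernel))
theorem l1136 : HoldsN X8 (Trg.left (Trg.right (Trg.left (Trg.right (chamber 1 1))))) (Trg.right (Trg.right (Trg.right (Trg.left (chamberNR 5 14))))) :=
  HoldsN.of_red (k := 16) (m := 16) (leaf ok8 (G32 _ rfl) (G452 _ rfl) (G141 _ rfl) (by decide +kernel))
theorem l1137 : HoldsN X7 (Trg.right (Trg.right (Trg.left (Trg.right (chamber 1 1))))) (Trg.right (Trg.left (chamberNR 5 14))) :=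
  HoldsN.of_red (k := 16) (m := 16) (leaf ok7 (G24 _ rfl) (G433 _ rfl) (G82 _ rfl) (by decide +kernel))
theorem l1138 : HoldsN X8 (Trg.right (Trg.right (Trg.left (Trg.right (chamber 1 1))))) (Trg.right (Trg.left (chamberNR 5 14))) :=
  HoldsN.of_red (k := 16) (m := 16) (leaf ok8 (G24 _ rfl) (G433 _ rfl) (G82 _ rfl) (by decide +kernel))
theorem l1139 : HoldsN X7 (Trg.left (Trg.left (Trg.right (chamber 1 1)))) (Trg.left (Trg.left (Trg.right (chamberNR 5 14)))) :=
  HoldsN.of_red (k := 16) (m := 16) (leaf ok7 (G5 _ rfl) (G434 _ rfl) (G230 _ rfl) (by decide +kernel))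

end Vale.Agent.Lib.P154N.D8
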