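import Vale.Agent.Lib.P154N.D8.Data
import Vale.Agent.Lib.P154N.Red

/-!
# Leaves of the tree of triangles
-/

namespace Vale.Agent.Lib.P154N.D8

open Vale.Agent.Lib.P154K Vale.Agent.Lib.P154Neg

theorem l1170 : HoldsN X8 (Trg.left (Trg.left (Trg.right (chamber 1 1)))) (Trg.right (Trg.right (Trg.right (chamberNR 5 14)))) :=
  HoldsN.of_red (k := 16) (m := 16) (leaf ok8 (G23 _ rfl) (G433 _ rfl) (G229 _ rfl) (by decide +kernel))
theorem l1171 : HoldsN X7 (Trg.right (Trg.left (Trg.right (chamber 1 1)))) (Trg.right (Trg.right (Trg.right (chamberNR 5 14)))) :=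
  HoldsN.of_red (k := 16) (m := 16) (leaf ok7 (G8 _ rfl) (G435 _ rfl) (G355 _ rfl) (by decide +kernel))
theorem l1172 : HoldsN X8 (Trg.right (Trg.left (Trg.right (chamber 1 1)))) (Trg.right (Trg.right (Trg.right (chamberNR 5 14)))) :=
  HoldsN.of_red (k := 16) (m := 16) (leaf ok8 (G8 _ rfl) (G435 _ rfl) (G355 _ rfl) (by decide +kernel))
theorem l1173 : HoldsN X7 (Trg.left (Trg.right (Trg.right (chamber 1 1)))) (Trg.left (Trg.left (Trg.left (chamberNR 5 14)))) :=
  HoldsN.of_red (k := 16) (m := 16) (leaf ok7 (G67 _ rfl) (G344 _ rfl) (G223 _ rfl) (by decide +kernel))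
theorem l1174 : HoldsN X8 (Trg.left (Trg.right (Trg.right (chamber 1 1)))) (Trg.left (Trg.left (Trg.left (chamberNR 5 14)))) :=
  HoldsN.of_red (k := 16) (m := 16) (leaf ok8 (G67 _ rfl) (G344 _ rfl) (G223 _ rfl) (by decide +kernel))
theorem l1175 : HoldsN X7 (Trg.left (Trg.left (Trg.right (Trg.right (chamber 1 1))))) (Trg.left (Trg.left (Trg.right (Trg.left (Trg.left (chamberNR 5 14)))))) :=
  HoldsN.of_red (k := 16) (m := 16) (leaf ok7 (G120 _ rfl) (G361 _ rfl) (G266 _ rfl) (by decide +kernel))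
theorem l1176 : HoldsN X8 (Trg.left (Trg.left (Trg.right (Trg.right (chamber 1 1))))) (Trg.left (Trg.left (Trg.right (Trg.left (Trg.left (chamberNR 5 14)))))) :=
  HoldsN.of_red (k := 16) (m := 16) (leaf ok8 (G120 _ rfl) (G361 _ rfl) (G266 _ rfl) (by decide +kernel))
theorem l1177 : HoldsN X7 (Trg.left (Trg.left (Trg.left (Trg.right (Trg.right (chamber 1 1)))))) (Trg.right (Trg.left (Trg.right (Trg.left (Trg.left (chamberNR 5 14)))))) :=
  HoldsN.of_red (k := 16) (m := 16) (leaf ok7 (G212 _ rfl) (G322 _ rfl) (G263 _ rfl) (by decide +kernel))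
theorem l1178 : HoldsN X8 (Trg.left (Trg.left (Trg.left (Trg.right (Trg.right (chamber 1 1)))))) (Trg.right (Trg.left (Trg.right (Trg.left (Trg.left (chamberNR 5 14)))))) :=
  HoldsN.of_red (k := 16) (m := 16) (leaf ok8 (G212 _ rfl) (G322 _ rfl) (G263 _ rfl) (by decide +kernel))
theorem l1179 : HoldsN X7 (Trg.right (Trg.left (Trg.left (Trg.right (Trg.right (chamber 1 1)))))) (Trg.right (Trg.left (Trg.right (Trg.left (Trg.left (chamberNR 5 14)))))) :=
  HoldsN.of_red (k := 16) (m := 16) (leaf ok7 (G193 _ rfl) (G322 _ rfl) (G265 _ rfl) (by decide +kernel))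

end Vale.Agent.Lib.P154N.D8
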