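import Vale.Agent.Lib.P154N.D8.Data
import Vale.Agent.Lib.P154N.Red

/-!
# Leaves of the tree of triangles
-/

namespace Vale.Agent.Lib.P154N.D8

open Vale.Agent.Lib.P154K Vale.Agent.Lib.P154Neg

theorem l1190 : HoldsN X8 (Trg.right (Trg.right (Trg.right (chamber 1 1)))) (Trg.left (Trg.left (Trg.left (chamberNR 5 14)))) :=
  HoldsN.of_red (k := 16) (m := 16) (leaf ok8 (G53 _ rfl) (G409 _ rfl) (G148 _ rfl) (by decide +kernel))
theorem l1191 : HoldsN X7 (Trg.right (Trg.right (Trg.right (chamber 1 1)))) (Trg.right (Trg.left (Trg.left (chamberNR 5 14)))) :=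
  HoldsN.of_red (k := 16) (m := 16) (leaf ok7 (G112 _ rfl) (G341 _ rfl) (G145 _ rfl) (by decide +kernel))
theorem l1192 : HoldsN X8 (Trg.right (Trg.right (Trg.right (chamber 1 1)))) (Trg.right (Trg.left (Trg.left (chamberNR 5 14)))) :=
  HoldsN.of_red (k := 16) (m := 16) (leaf ok8 (G112 _ rfl) (G341 _ rfl) (G145 _ rfl) (by decide +kernel))
theorem l1193 : HoldsN X7 (Trg.right (Trg.right (Trg.right (chamber 1 1)))) (Trg.right (Trg.left (chamberNR 5 14))) :=
  HoldsN.of_red (k := 16) (m := 16) (leaf ok7 (G53 _ rfl) (G409 _ rfl) (G81 _ rfl) (by decide +kernel))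
theorem l1194 : HoldsN X8 (Trg.right (Trg.right (Trg.right (chamber 1 1)))) (Trg.right (Trg.left (chamberNR 5 14))) :=
  HoldsN.of_red (k := 16) (m := 16) (leaf ok8 (G53 _ rfl) (G409 _ rfl) (G81 _ rfl) (by decide +kernel))
theorem l1195 : HoldsN X7 (Trg.left (Trg.right (Trg.right (chamber 1 1)))) (Trg.left (Trg.right (chamberNR 5 14))) :=
  HoldsN.of_red (k := 16) (m := 16) (leaf ok7 (G20 _ rfl) (G344 _ rfl) (G286 _ rfl) (by decide +kernel))
theorem l1196 : HoldsN X8 (Trg.left (Trg.right (Trg.right (chamber 1 1)))) (Trg.left (Trg.right (chamberNR 5 14))) :=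
  HoldsN.of_red (k := 16) (m := 16) (leaf ok8 (G20 _ rfl) (G344 _ rfl) (G286 _ rfl) (by decide +kernel))
theorem l1197 : HoldsN X7 (Trg.right (Trg.right (Trg.right (chamber 1 1)))) (Trg.left (Trg.right (chamberNR 5 14))) :=
  HoldsN.of_red (k := 16) (m := 16) (leaf ok7 (G8 _ rfl) (G435 _ rfl) (G232 _ rfl) (by decide +kernel))
theorem l1198 : HoldsN X8 (Trg.right (Trg.right (Trg.right (chamber 1 1)))) (Trg.left (Trg.right (chamberNR 5 14))) :=
  HoldsN.of_red (k := 16) (m := 16) (leaf ok8 (G8 _ rfl) (G435 _ rfl) (G232 _ rfl) (by decide +kernel))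
theorem l1199 : HoldsN X7 (Trg.left (Trg.left (Trg.right (Trg.right (chamber 1 1))))) (Trg.left (Trg.left (Trg.right (Trg.right (chamberNR 5 14))))) :=
  HoldsN.of_red (k := 16) (m := 16) (leaf ok7 (G76 _ rfl) (G361 _ rfl) (G303 _ rfl) (by decide +kernel))

end Vale.Agent.Lib.P154N.D8
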