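import Vale.Agent.Lib.P154N.D8.Data
import Vale.Agent.Lib.P154N.Red

/-!
# Leaves of the tree of triangles
-/

namespace Vale.Agent.Lib.P154N.D8

open Vale.Agent.Lib.P154K Vale.Agent.Lib.P154Neg

theorem l120 : HoldsN X2 (Trg.right (Trg.left (Trg.right (Trg.left (Trg.right (chamberN 5 14)))))) (Trg.left (Trg.left (Trg.right (Trg.right (chamberNR 5 14))))) :=
  HoldsN.of_red (k := 16) (m := 16) (leaf ok2 (G399 _ rfl) (G175 _ rfl) (G177 _ rfl) (by decide +kernel))
theorem l121 : HoldsN X2 (Trg.left (Trg.right (Trg.left (Trg.right (chamberN 5 14))))) (Trg.right (Trg.left (Trg.right (Trg.right (chamberNR 5 14))))) :=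
  HoldsN.of_red (k := 16) (m := 16) (leaf ok2 (G331 _ rfl) (G179 _ rfl) (G237 _ rfl) (by decide +kernel))
theorem l122 : HoldsN X2 (Trg.right (Trg.right (Trg.left (Trg.right (chamberN 5 14))))) (Trg.left (Trg.right (Trg.right (chamberNR 5 14)))) :=
  HoldsN.of_red (k := 16) (m := 16) (leaf ok2 (G336 _ rfl) (G179 _ rfl) (G206 _ rfl) (by decide +kernel))
theorem l123 : HoldsN X2 (Trg.left (Trg.left (Trg.right (chamberN 5 14)))) (Trg.right (Trg.right (Trg.right (chamberNR 5 14)))) :=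
  HoldsN.of_red (k := 16) (m := 16) (leaf ok2 (G391 _ rfl) (G116 _ rfl) (G217 _ rfl) (by decide +kernel))
theorem l124 : HoldsN X2 (Trg.left (Trg.right (Trg.left (Trg.right (chamberN 5 14))))) (Trg.left (Trg.right (Trg.right (Trg.right (chamberNR 5 14))))) :=
  HoldsN.of_red (k := 16) (m := 16) (leaf ok2 (G402 _ rfl) (G104 _ rfl) (G205 _ rfl) (by decide +kernel))
theorem l125 : HoldsN X2 (Trg.left (Trg.right (Trg.left (Trg.right (chamberN 5 14))))) (Trg.right (Trg.right (Trg.right (Trg.right (chamberNR 5 14))))) :=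
  HoldsN.of_red (k := 16) (m := 16) (leaf ok2 (G400 _ rfl) (G130 _ rfl) (G178 _ rfl) (by decide +kernel))
theorem l126 : HoldsN X2 (Trg.right (Trg.right (Trg.left (Trg.right (chamberN 5 14))))) (Trg.right (Trg.right (Trg.right (chamberNR 5 14)))) :=
  HoldsN.of_red (k := 16) (m := 16) (leaf ok2 (G391 _ rfl) (G116 _ rfl) (G205 _ rfl) (by decide +kernel))
theorem l127 : HoldsN X2 (Trg.left (Trg.right (Trg.right (chamberN 5 14)))) (Trg.left (Trg.left (Trg.left (chamberNR 5 14)))) :=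
  HoldsN.of_red (k := 16) (m := 16) (leaf ok2 (G331 _ rfl) (G179 _ rfl) (G267 _ rfl) (by decide +kernel))
theorem l128 : HoldsN X2 (Trg.left (Trg.left (Trg.right (Trg.right (chamberN 5 14))))) (Trg.right (Trg.left (Trg.left (chamberNR 5 14)))) :=
  HoldsN.of_red (k := 16) (m := 16) (leaf ok2 (G322 _ rfl) (G237 _ rfl) (G292 _ rfl) (by decide +kernel))
theorem l129 : HoldsN X2 (Trg.left (Trg.right (Trg.left (Trg.right (Trg.right (chamberN 5 14)))))) (Trg.right (Trg.left (Trg.left (chamberNR 5 14)))) :=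
  HoldsN.of_red (k := 16) (m := 16) (leaf ok2 (G316 _ rfl) (G262 _ rfl) (G310 _ rfl) (by decide +kernel))

end Vale.Agent.Lib.P154N.D8
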