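import Vale.Agent.Lib.P154N.D8.Data
import Vale.Agent.Lib.P154N.Red

/-!
# Leaves of the tree of triangles
-/

namespace Vale.Agent.Lib.P154N.D8

open Vale.Agent.Lib.P154K Vale.Agent.Lib.P154Neg

theorem l1200 : HoldsN X8 (Trg.left (Trg.left (Trg.right (Trg.right (chamber 1 1))))) (Trg.left (Trg.left (Trg.right (Trg.right (chamberNR 5 14))))) :=
  HoldsN.of_red (k := 16) (m := 16) (leaf ok8 (G76 _ rfl) (G361 _ rfl) (G303 _ rfl) (by decide +kernel))
theorem l1201 : HoldsN X7 (Trg.left (Trg.left (Trg.left (Trg.right (Trg.right (chamber 1 1)))))) (Trg.left (Trg.right (Trg.left (Trg.right (Trg.right (chamberNR 5 14)))))) :=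
  HoldsN.of_red (k := 16) (m := 16) (leaf ok7 (G170 _ rfl) (G322 _ rfl) (G313 _ rfl) (by decide +kernel))
theorem l1202 : HoldsN X8 (Trg.left (Trg.left (Trg.left (Trg.right (Trg.right (chamber 1 1)))))) (Trg.left (Trg.right (Trg.left (Trg.right (Trg.right (chamberNR 5 14)))))) :=
  HoldsN.of_red (k := 16) (m := 16) (leaf ok8 (G170 _ rfl) (G322 _ rfl) (G313 _ rfl) (by decide +kernel))
theorem l1203 : HoldsN X7 (Trg.right (Trg.left (Trg.left (Trg.right (Trg.right (chamber 1 1)))))) (Trg.left (Trg.right (Trg.left (Trg.right (Trg.right (chamberNR 5 14)))))) :=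
  HoldsN.of_red (k := 16) (m := 16) (leaf ok7 (G142 _ rfl) (G322 _ rfl) (G322 _ rfl) (by decide +kernel))
theorem l1204 : HoldsN X8 (Trg.right (Trg.left (Trg.left (Trg.right (Trg.right (chamber 1 1)))))) (Trg.left (Trg.right (Trg.left (Trg.right (Trg.right (chamberNR 5 14)))))) :=
  HoldsN.of_red (k := 16) (m := 16) (leaf ok8 (G142 _ rfl) (G322 _ rfl) (G322 _ rfl) (by decide +kernel))
theorem l1205 : HoldsN X7 (Trg.left (Trg.left (Trg.right (Trg.right (chamber 1 1))))) (Trg.right (Trg.right (Trg.left (Trg.right (Trg.right (chamberNR 5 14)))))) :=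
  HoldsN.of_red (k := 16) (m := 16) (leaf ok7 (G117 _ rfl) (G361 _ rfl) (G296 _ rfl) (by decide +kernel))
theorem l1206 : HoldsN X8 (Trg.left (Trg.left (Trg.right (Trg.right (chamber 1 1))))) (Trg.right (Trg.right (Trg.left (Trg.right (Trg.right (chamberNR 5 14)))))) :=
  HoldsN.of_red (k := 16) (m := 16) (leaf ok8 (G117 _ rfl) (G361 _ rfl) (G296 _ rfl) (by decide +kernel))
theorem l1207 : HoldsN X7 (Trg.right (Trg.left (Trg.right (Trg.right (chamber 1 1))))) (Trg.left (Trg.left (Trg.right (Trg.right (chamberNR 5 14))))) :=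
  HoldsN.of_red (k := 16) (m := 16) (leaf ok7 (G121 _ rfl) (G332 _ rfl) (G297 _ rfl) (by decide +kernel))
theorem l1208 : HoldsN X8 (Trg.right (Trg.left (Trg.right (Trg.right (chamber 1 1))))) (Trg.left (Trg.left (Trg.right (Trg.right (chamberNR 5 14))))) :=
  HoldsN.of_red (k := 16) (m := 16) (leaf ok8 (G121 _ rfl) (G332 _ rfl) (G297 _ rfl) (by decide +kernel))
theorem l1209 : HoldsN X7 (Trg.left (Trg.right (Trg.left (Trg.right (Trg.right (chamber 1 1)))))) (Trg.right (Trg.left (Trg.right (Trg.right (chamberNR 5 14))))) :=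
  HoldsN.of_red (k := 16) (m := 16) (leaf ok7 (G193 _ rfl) (G322 _ rfl) (G311 _ rfl) (by decide +kernel))

end Vale.Agent.Lib.P154N.D8
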