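import Vale.Agent.Lib.P154N.D8.Data
import Vale.Agent.Lib.P154N.Red

/-!
# Leaves of the tree of triangles
-/

namespace Vale.Agent.Lib.P154N.D8

open Vale.Agent.Lib.P154K Vale.Agent.Lib.P154Neg

theorem l130 : HoldsN X2 (Trg.right (Trg.right (Trg.left (Trg.right (Trg.right (chamberN 5 14)))))) (Trg.right (Trg.left (Trg.left (chamberNR 5 14)))) :=
  HoldsN.of_red (k := 16) (m := 16) (leaf ok2 (G316 _ rfl) (G253 _ rfl) (G311 _ rfl) (by decide +kernel))
theorem l131 : HoldsN X2 (Trg.left (Trg.right (Trg.right (chamberN 5 14)))) (Trg.right (Trg.left (chamberNR 5 14))) :=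
  HoldsN.of_red (k := 16) (m := 16) (leaf ok2 (G331 _ rfl) (G179 _ rfl) (G270 _ rfl) (by decide +kernel))
theorem l132 : HoldsN X2 (Trg.right (Trg.right (Trg.right (chamberN 5 14)))) (Trg.left (Trg.left (Trg.left (Trg.left (chamberNR 5 14))))) :=
  HoldsN.of_red (k := 16) (m := 16) (leaf ok2 (G323 _ rfl) (G168 _ rfl) (G294 _ rfl) (by decide +kernel))
theorem l133 : HoldsN X2 (Trg.right (Trg.right (Trg.right (chamberN 5 14)))) (Trg.right (Trg.left (Trg.left (Trg.left (chamberNR 5 14))))) :=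
  HoldsN.of_red (k := 16) (m := 16) (leaf ok2 (G361 _ rfl) (G129 _ rfl) (G268 _ rfl) (by decide +kernel))
theorem l134 : HoldsN X2 (Trg.right (Trg.right (Trg.right (chamberN 5 14)))) (Trg.right (Trg.left (Trg.left (chamberNR 5 14)))) :=
  HoldsN.of_red (k := 16) (m := 16) (leaf ok2 (G322 _ rfl) (G206 _ rfl) (G295 _ rfl) (by decide +kernel))
theorem l135 : HoldsN X2 (Trg.right (Trg.right (Trg.right (chamberN 5 14)))) (Trg.left (Trg.right (Trg.left (chamberNR 5 14)))) :=
  HoldsN.of_red (k := 16) (m := 16) (leaf ok2 (G325 _ rfl) (G139 _ rfl) (G350 _ rfl) (by decide +kernel))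
theorem l136 : HoldsN X2 (Trg.right (Trg.right (Trg.right (chamberN 5 14)))) (Trg.left (Trg.right (Trg.right (Trg.left (chamberNR 5 14))))) :=
  HoldsN.of_red (k := 16) (m := 16) (leaf ok2 (G378 _ rfl) (G128 _ rfl) (G271 _ rfl) (by decide +kernel))
theorem l137 : HoldsN X2 (Trg.right (Trg.right (Trg.right (chamberN 5 14)))) (Trg.right (Trg.right (Trg.right (Trg.left (chamberNR 5 14))))) :=
  HoldsN.of_red (k := 16) (m := 16) (leaf ok2 (G325 _ rfl) (G139 _ rfl) (G321 _ rfl) (by decide +kernel))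
theorem l138 : HoldsN X2 (Trg.right (Trg.right (chamberN 5 14))) (Trg.left (Trg.right (chamberNR 5 14))) :=
  HoldsN.of_red (k := 16) (m := 16) (leaf ok2 (G343 _ rfl) (G109 _ rfl) (G183 _ rfl) (by decide +kernel))
theorem l139 : HoldsN X2 (Trg.left (Trg.left (Trg.right (Trg.right (chamberN 5 14))))) (Trg.left (Trg.right (Trg.right (chamberNR 5 14)))) :=
  HoldsN.of_red (k := 16) (m := 16) (leaf ok2 (G327 _ rfl) (G237 _ rfl) (G239 _ rfl) (by decide +kernel))

end Vale.Agent.Lib.P154N.D8
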