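import Vale.Agent.Lib.P154N.D8.Data
import Vale.Agent.Lib.P154N.Red

/-!
# Leaves of the tree of triangles
-/

namespace Vale.Agent.Lib.P154N.D8

open Vale.Agent.Lib.P154K Vale.Agent.Lib.P154Neg

theorem l140 : HoldsN X2 (Trg.right (Trg.left (Trg.right (Trg.right (chamberN 5 14))))) (Trg.left (Trg.left (Trg.right (Trg.right (chamberNR 5 14))))) :=
  HoldsN.of_red (k := 16) (m := 16) (leaf ok2 (G322 _ rfl) (G237 _ rfl) (G263 _ rfl) (by decide +kernel))
theorem l141 : HoldsN X2 (Trg.left (Trg.left (Trg.right (Trg.left (Trg.right (Trg.right (chamberN 5 14))))))) (Trg.left (Trg.right (Trg.left (Trg.right (Trg.right (chamberNR 5 14)))))) :=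
  HoldsN.of_red (k := 16) (m := 16) (leaf ok2 (G316 _ rfl) (G289 _ rfl) (G290 _ rfl) (by decide +kernel))
theorem l142 : HoldsN X2 (Trg.right (Trg.left (Trg.right (Trg.left (Trg.right (Trg.right (chamberN 5 14))))))) (Trg.left (Trg.right (Trg.left (Trg.right (Trg.right (chamberNR 5 14)))))) :=
  HoldsN.of_red (k := 16) (m := 16) (leaf ok2 (G315 _ rfl) (G289 _ rfl) (G309 _ rfl) (by decide +kernel))
theorem l143 : HoldsN X2 (Trg.left (Trg.right (Trg.left (Trg.right (Trg.right (chamberN 5 14)))))) (Trg.right (Trg.right (Trg.left (Trg.right (Trg.right (chamberNR 5 14)))))) :=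
  HoldsN.of_red (k := 16) (m := 16) (leaf ok2 (G316 _ rfl) (G262 _ rfl) (G290 _ rfl) (by decide +kernel))
theorem l144 : HoldsN X2 (Trg.right (Trg.right (Trg.left (Trg.right (Trg.right (chamberN 5 14)))))) (Trg.right (Trg.left (Trg.right (Trg.right (chamberNR 5 14))))) :=
  HoldsN.of_red (k := 16) (m := 16) (leaf ok2 (G316 _ rfl) (G253 _ rfl) (G290 _ rfl) (by decide +kernel))
theorem l145 : HoldsN X2 (Trg.left (Trg.right (Trg.right (chamberN 5 14)))) (Trg.right (Trg.right (Trg.right (chamberNR 5 14)))) :=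
  HoldsN.of_red (k := 16) (m := 16) (leaf ok2 (G331 _ rfl) (G179 _ rfl) (G241 _ rfl) (by decide +kernel))
theorem l146 : HoldsN X2 (Trg.right (Trg.right (Trg.right (chamberN 5 14)))) (Trg.left (Trg.left (Trg.right (Trg.right (chamberNR 5 14))))) :=
  HoldsN.of_red (k := 16) (m := 16) (leaf ok2 (G360 _ rfl) (G176 _ rfl) (G240 _ rfl) (by decide +kernel))
theorem l147 : HoldsN X2 (Trg.right (Trg.right (Trg.right (chamberN 5 14)))) (Trg.right (Trg.left (Trg.right (Trg.right (chamberNR 5 14))))) :=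
  HoldsN.of_red (k := 16) (m := 16) (leaf ok2 (G322 _ rfl) (G206 _ rfl) (G265 _ rfl) (by decide +kernel))
theorem l148 : HoldsN X2 (Trg.right (Trg.right (Trg.right (chamberN 5 14)))) (Trg.right (Trg.right (Trg.right (chamberNR 5 14)))) :=
  HoldsN.of_red (k := 16) (m := 16) (leaf ok2 (G361 _ rfl) (G129 _ rfl) (G242 _ rfl) (by decide +kernel))
theorem l149 : HoldsN X3 (Trg.left (Trg.left (Trg.left (Trg.left (chamber 1 1))))) (Trg.left (Trg.left (Trg.left (Trg.left (chamberN 5 14))))) :=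
  HoldsN.of_red (k := 16) (m := 16) (leaf ok3 (G96 _ rfl) (G300 _ rfl) (G300 _ rfl) (by decide +kernel))

end Vale.Agent.Lib.P154N.D8
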