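import Vale.Agent.Lib.P154N.D8.Data
import Vale.Agent.Lib.P154N.Red

/-!
# Leaves of the tree of triangles
-/

namespace Vale.Agent.Lib.P154N.D8

open Vale.Agent.Lib.P154K Vale.Agent.Lib.P154Neg

theorem l150 : HoldsN X3 (Trg.left (Trg.left (Trg.left (Trg.left (chamber 1 1))))) (Trg.right (Trg.left (Trg.left (Trg.left (chamberN 5 14))))) :=
  HoldsN.of_red (k := 16) (m := 16) (leaf ok3 (G71 _ rfl) (G387 _ rfl) (G277 _ rfl) (by decide +kernel))
theorem l151 : HoldsN X3 (Trg.right (Trg.left (Trg.left (Trg.left (chamber 1 1))))) (Trg.left (Trg.left (Trg.left (Trg.left (chamberN 5 14))))) :=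
  HoldsN.of_red (k := 16) (m := 16) (leaf ok3 (G71 _ rfl) (G277 _ rfl) (G387 _ rfl) (by decide +kernel))
theorem l152 : HoldsN X3 (Trg.right (Trg.left (Trg.left (Trg.left (chamber 1 1))))) (Trg.right (Trg.left (Trg.left (Trg.left (chamberN 5 14))))) :=
  HoldsN.of_red (k := 16) (m := 16) (leaf ok3 (G30 _ rfl) (G388 _ rfl) (G388 _ rfl) (by decide +kernel))
theorem l153 : HoldsN X3 (Trg.left (Trg.left (Trg.left (chamber 1 1)))) (Trg.right (Trg.left (Trg.left (chamberN 5 14)))) :=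
  HoldsN.of_red (k := 16) (m := 16) (leaf ok3 (G93 _ rfl) (G278 _ rfl) (G305 _ rfl) (by decide +kernel))
theorem l154 : HoldsN X3 (Trg.left (Trg.left (Trg.left (Trg.left (chamber 1 1))))) (Trg.left (Trg.right (Trg.left (chamberN 5 14)))) :=
  HoldsN.of_red (k := 16) (m := 16) (leaf ok3 (G87 _ rfl) (G277 _ rfl) (G354 _ rfl) (by decide +kernel))
theorem l155 : HoldsN X3 (Trg.left (Trg.left (Trg.left (Trg.left (chamber 1 1))))) (Trg.left (Trg.right (Trg.right (Trg.left (chamberN 5 14))))) :=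
  HoldsN.of_red (k := 16) (m := 16) (leaf ok3 (G70 _ rfl) (G381 _ rfl) (G281 _ rfl) (by decide +kernel))
theorem l156 : HoldsN X3 (Trg.left (Trg.left (Trg.left (Trg.left (chamber 1 1))))) (Trg.right (Trg.right (Trg.right (Trg.left (chamberN 5 14))))) :=
  HoldsN.of_red (k := 16) (m := 16) (leaf ok3 (G87 _ rfl) (G301 _ rfl) (G333 _ rfl) (by decide +kernel))
theorem l157 : HoldsN X3 (Trg.right (Trg.left (Trg.left (Trg.left (chamber 1 1))))) (Trg.left (Trg.right (Trg.left (chamberN 5 14)))) :=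
  HoldsN.of_red (k := 16) (m := 16) (leaf ok3 (G52 _ rfl) (G225 _ rfl) (G407 _ rfl) (by decide +kernel))
theorem l158 : HoldsN X3 (Trg.right (Trg.left (Trg.left (Trg.left (chamber 1 1))))) (Trg.left (Trg.right (Trg.right (Trg.left (chamberN 5 14))))) :=
  HoldsN.of_red (k := 16) (m := 16) (leaf ok3 (G29 _ rfl) (G383 _ rfl) (G412 _ rfl) (by decide +kernel))
theorem l159 : HoldsN X3 (Trg.right (Trg.left (Trg.left (Trg.left (chamber 1 1))))) (Trg.right (Trg.right (Trg.right (Trg.left (chamberN 5 14))))) :=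
  HoldsN.of_red (k := 16) (m := 16) (leaf ok3 (G52 _ rfl) (G276 _ rfl) (G405 _ rfl) (by decide +kernel))

end Vale.Agent.Lib.P154N.D8
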