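import Vale.Agent.Lib.P154N.D8.Data
import Vale.Agent.Lib.P154N.Red

/-!
# Leaves of the tree of triangles
-/

namespace Vale.Agent.Lib.P154N.D8

open Vale.Agent.Lib.P154K Vale.Agent.Lib.P154Neg

theorem l160 : HoldsN X3 (Trg.right (Trg.left (Trg.left (chamber 1 1)))) (Trg.left (Trg.left (Trg.left (chamberN 5 14)))) :=
  HoldsN.of_red (k := 16) (m := 16) (leaf ok3 (G93 _ rfl) (G305 _ rfl) (G278 _ rfl) (by decide +kernel))
theorem l161 : HoldsN X3 (Trg.right (Trg.left (Trg.left (chamber 1 1)))) (Trg.right (Trg.left (Trg.left (chamberN 5 14)))) :=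
  HoldsN.of_red (k := 16) (m := 16) (leaf ok3 (G170 _ rfl) (G299 _ rfl) (G299 _ rfl) (by decide +kernel))
theorem l162 : HoldsN X3 (Trg.right (Trg.left (Trg.left (chamber 1 1)))) (Trg.right (Trg.left (chamberN 5 14))) :=
  HoldsN.of_red (k := 16) (m := 16) (leaf ok3 (G93 _ rfl) (G283 _ rfl) (G283 _ rfl) (by decide +kernel))
theorem l163 : HoldsN X3 (Trg.left (Trg.right (Trg.left (chamber 1 1)))) (Trg.left (Trg.left (Trg.left (chamberN 5 14)))) :=
  HoldsN.of_red (k := 16) (m := 16) (leaf ok3 (G52 _ rfl) (G356 _ rfl) (G226 _ rfl) (by decide +kernel))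
theorem l164 : HoldsN X3 (Trg.left (Trg.right (Trg.right (Trg.left (chamber 1 1))))) (Trg.left (Trg.left (Trg.left (chamberN 5 14)))) :=
  HoldsN.of_red (k := 16) (m := 16) (leaf ok3 (G31 _ rfl) (G287 _ rfl) (G383 _ rfl) (by decide +kernel))
theorem l165 : HoldsN X3 (Trg.right (Trg.right (Trg.right (Trg.left (chamber 1 1))))) (Trg.left (Trg.left (Trg.left (Trg.left (chamberN 5 14))))) :=
  HoldsN.of_red (k := 16) (m := 16) (leaf ok3 (G87 _ rfl) (G333 _ rfl) (G301 _ rfl) (by decide +kernel))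
theorem l166 : HoldsN X3 (Trg.right (Trg.right (Trg.right (Trg.left (chamber 1 1))))) (Trg.right (Trg.left (Trg.left (Trg.left (chamberN 5 14))))) :=
  HoldsN.of_red (k := 16) (m := 16) (leaf ok3 (G52 _ rfl) (G405 _ rfl) (G276 _ rfl) (by decide +kernel))
theorem l167 : HoldsN X3 (Trg.right (Trg.left (chamber 1 1))) (Trg.right (Trg.left (Trg.left (chamberN 5 14)))) :=
  HoldsN.of_red (k := 16) (m := 16) (leaf ok3 (G93 _ rfl) (G283 _ rfl) (G283 _ rfl) (by decide +kernel))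
theorem l168 : HoldsN X3 (Trg.left (Trg.right (Trg.left (chamber 1 1)))) (Trg.right (Trg.left (chamberN 5 14))) :=
  HoldsN.of_red (k := 16) (m := 16) (leaf ok3 (G52 _ rfl) (G356 _ rfl) (G231 _ rfl) (by decide +kernel))
theorem l169 : HoldsN X3 (Trg.left (Trg.right (Trg.right (Trg.left (chamber 1 1))))) (Trg.right (Trg.left (chamberN 5 14))) :=
  HoldsN.of_red (k := 16) (m := 16) (leaf ok3 (G31 _ rfl) (G234 _ rfl) (G407 _ rfl) (by decide +kernel))

end Vale.Agent.Lib.P154N.D8
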