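import Vale.Agent.Lib.P154N.D8.Data
import Vale.Agent.Lib.P154N.Red

/-!
# Leaves of the tree of triangles
-/

namespace Vale.Agent.Lib.P154N.D8

open Vale.Agent.Lib.P154K Vale.Agent.Lib.P154Neg

theorem l170 : HoldsN X3 (Trg.right (Trg.right (Trg.right (Trg.left (chamber 1 1))))) (Trg.right (Trg.left (chamberN 5 14))) :=
  HoldsN.of_red (k := 16) (m := 16) (leaf ok3 (G52 _ rfl) (G345 _ rfl) (G285 _ rfl) (by decide +kernel))
theorem l171 : HoldsN X3 (Trg.left (Trg.left (Trg.left (Trg.left (chamber 1 1))))) (Trg.left (Trg.right (chamberN 5 14))) :=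
  HoldsN.of_red (k := 16) (m := 16) (leaf ok3 (G45 _ rfl) (G424 _ rfl) (G153 _ rfl) (by decide +kernel))
theorem l172 : HoldsN X3 (Trg.right (Trg.left (Trg.left (Trg.left (chamber 1 1))))) (Trg.left (Trg.right (chamberN 5 14))) :=
  HoldsN.of_red (k := 16) (m := 16) (leaf ok3 (G8 _ rfl) (G425 _ rfl) (G342 _ rfl) (by decide +kernel))
theorem l173 : HoldsN X3 (Trg.right (Trg.left (Trg.left (chamber 1 1)))) (Trg.left (Trg.right (chamberN 5 14))) :=
  HoldsN.of_red (k := 16) (m := 16) (leaf ok3 (G67 _ rfl) (G344 _ rfl) (G154 _ rfl) (by decide +kernel))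
theorem l174 : HoldsN X3 (Trg.left (Trg.left (Trg.right (Trg.left (chamber 1 1))))) (Trg.left (Trg.left (Trg.right (chamberN 5 14)))) :=
  HoldsN.of_red (k := 16) (m := 16) (leaf ok3 (G41 _ rfl) (G430 _ rfl) (G165 _ rfl) (by decide +kernel))
theorem l175 : HoldsN X3 (Trg.right (Trg.left (Trg.right (Trg.left (chamber 1 1))))) (Trg.left (Trg.left (Trg.left (Trg.left (Trg.right (chamberN 5 14)))))) :=
  HoldsN.of_red (k := 16) (m := 16) (leaf ok3 (G39 _ rfl) (G455 _ rfl) (G123 _ rfl) (by decide +kernel))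
theorem l176 : HoldsN X3 (Trg.right (Trg.left (Trg.right (Trg.left (chamber 1 1))))) (Trg.right (Trg.left (Trg.left (Trg.left (Trg.right (chamberN 5 14)))))) :=
  HoldsN.of_red (k := 16) (m := 16) (leaf ok3 (G68 _ rfl) (G445 _ rfl) (G137 _ rfl) (by decide +kernel))
theorem l177 : HoldsN X3 (Trg.right (Trg.left (Trg.right (Trg.left (chamber 1 1))))) (Trg.right (Trg.left (Trg.left (Trg.right (chamberN 5 14))))) :=
  HoldsN.of_red (k := 16) (m := 16) (leaf ok3 (G39 _ rfl) (G455 _ rfl) (G125 _ rfl) (by decide +kernel))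
theorem l178 : HoldsN X3 (Trg.left (Trg.right (Trg.left (chamber 1 1)))) (Trg.left (Trg.right (Trg.left (Trg.right (chamberN 5 14))))) :=
  HoldsN.of_red (k := 16) (m := 16) (leaf ok3 (G31 _ rfl) (G452 _ rfl) (G80 _ rfl) (by decide +kernel))
theorem l179 : HoldsN X3 (Trg.left (Trg.right (Trg.left (chamber 1 1)))) (Trg.right (Trg.right (Trg.left (Trg.right (chamberN 5 14))))) :=
  HoldsN.of_red (k := 16) (m := 16) (leaf ok3 (G41 _ rfl) (G431 _ rfl) (G101 _ rfl) (by decide +kernel))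

end Vale.Agent.Lib.P154N.D8
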