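import Vale.Agent.Lib.P154N.D8.Data
import Vale.Agent.Lib.P154N.Red

/-!
# Leaves of the tree of triangles
-/

namespace Vale.Agent.Lib.P154N.D8

open Vale.Agent.Lib.P154K Vale.Agent.Lib.P154Neg

theorem l180 : HoldsN X3 (Trg.left (Trg.right (Trg.right (Trg.left (chamber 1 1))))) (Trg.left (Trg.left (Trg.right (chamberN 5 14)))) :=
  HoldsN.of_red (k := 16) (m := 16) (leaf ok3 (G16 _ rfl) (G448 _ rfl) (G285 _ rfl) (by decide +kernel))
theorem l181 : HoldsN X3 (Trg.left (Trg.right (Trg.right (Trg.left (chamber 1 1))))) (Trg.left (Trg.right (Trg.left (Trg.right (chamberN 5 14))))) :=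
  HoldsN.of_red (k := 16) (m := 16) (leaf ok3 (G6 _ rfl) (G463 _ rfl) (G230 _ rfl) (by decide +kernel))
theorem l182 : HoldsN X3 (Trg.left (Trg.right (Trg.right (Trg.left (chamber 1 1))))) (Trg.right (Trg.right (Trg.left (Trg.right (chamberN 5 14))))) :=
  HoldsN.of_red (k := 16) (m := 16) (leaf ok3 (G16 _ rfl) (G448 _ rfl) (G251 _ rfl) (by decide +kernel))
theorem l183 : HoldsN X3 (Trg.right (Trg.right (Trg.right (Trg.left (chamber 1 1))))) (Trg.left (Trg.right (chamberN 5 14))) :=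
  HoldsN.of_red (k := 16) (m := 16) (leaf ok3 (G33 _ rfl) (G435 _ rfl) (G152 _ rfl) (by decide +kernel))
theorem l184 : HoldsN X3 (Trg.left (Trg.left (Trg.left (Trg.left (chamber 1 1))))) (Trg.left (Trg.left (Trg.right (Trg.right (chamberN 5 14))))) :=
  HoldsN.of_red (k := 16) (m := 16) (leaf ok3 (G98 _ rfl) (G392 _ rfl) (G220 _ rfl) (by decide +kernel))
theorem l185 : HoldsN X3 (Trg.left (Trg.left (Trg.left (Trg.left (chamber 1 1))))) (Trg.right (Trg.left (Trg.right (Trg.right (chamberN 5 14))))) :=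
  HoldsN.of_red (k := 16) (m := 16) (leaf ok3 (G135 _ rfl) (G327 _ rfl) (G270 _ rfl) (by decide +kernel))
theorem l186 : HoldsN X3 (Trg.right (Trg.left (Trg.left (Trg.left (chamber 1 1))))) (Trg.left (Trg.right (Trg.right (chamberN 5 14)))) :=
  HoldsN.of_red (k := 16) (m := 16) (leaf ok3 (G67 _ rfl) (G344 _ rfl) (G329 _ rfl) (by decide +kernel))
theorem l187 : HoldsN X3 (Trg.left (Trg.left (Trg.left (Trg.left (chamber 1 1))))) (Trg.right (Trg.right (Trg.right (chamberN 5 14)))) :=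
  HoldsN.of_red (k := 16) (m := 16) (leaf ok3 (G71 _ rfl) (G392 _ rfl) (G226 _ rfl) (by decide +kernel))
theorem l188 : HoldsN X3 (Trg.right (Trg.left (Trg.left (Trg.left (chamber 1 1))))) (Trg.right (Trg.right (Trg.right (chamberN 5 14)))) :=
  HoldsN.of_red (k := 16) (m := 16) (leaf ok3 (G30 _ rfl) (G393 _ rfl) (G342 _ rfl) (by decide +kernel))
theorem l189 : HoldsN X3 (Trg.left (Trg.right (Trg.left (Trg.left (chamber 1 1))))) (Trg.left (Trg.left (Trg.right (Trg.right (chamberN 5 14))))) :=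
  HoldsN.of_red (k := 16) (m := 16) (leaf ok3 (G121 _ rfl) (G332 _ rfl) (G270 _ rfl) (by decide +kernel))

end Vale.Agent.Lib.P154N.D8
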