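import Vale.Agent.Lib.P154N.D8.Data
import Vale.Agent.Lib.P154N.Red

/-!
# Leaves of the tree of triangles
-/

namespace Vale.Agent.Lib.P154N.D8

open Vale.Agent.Lib.P154K Vale.Agent.Lib.P154Neg

theorem l190 : HoldsN X3 (Trg.left (Trg.left (Trg.right (Trg.right (Trg.left (Trg.left (chamber 1 1))))))) (Trg.left (Trg.left (Trg.left (Trg.right (Trg.right (chamberN 5 14)))))) :=
  HoldsN.of_red (k := 16) (m := 16) (leaf ok3 (G177 _ rfl) (G358 _ rfl) (G264 _ rfl) (by decide +kernel))
theorem l191 : HoldsN X3 (Trg.right (Trg.left (Trg.right (Trg.right (Trg.left (Trg.left (chamber 1 1))))))) (Trg.left (Trg.left (Trg.left (Trg.right (Trg.right (chamberN 5 14)))))) :=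
  HoldsN.of_red (k := 16) (m := 16) (leaf ok3 (G176 _ rfl) (G384 _ rfl) (G256 _ rfl) (by decide +kernel))
theorem l192 : HoldsN X3 (Trg.left (Trg.right (Trg.right (Trg.left (Trg.left (chamber 1 1)))))) (Trg.left (Trg.right (Trg.left (Trg.left (Trg.right (Trg.right (chamberN 5 14))))))) :=
  HoldsN.of_red (k := 16) (m := 16) (leaf ok3 (G168 _ rfl) (G385 _ rfl) (G213 _ rfl) (by decide +kernel))
theorem l193 : HoldsN X3 (Trg.left (Trg.left (Trg.right (Trg.right (Trg.left (Trg.left (chamber 1 1))))))) (Trg.right (Trg.right (Trg.left (Trg.left (Trg.right (Trg.right (chamberN 5 14))))))) :=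
  HoldsN.of_red (k := 16) (m := 16) (leaf ok3 (G177 _ rfl) (G358 _ rfl) (G254 _ rfl) (by decide +kernel))
theorem l194 : HoldsN X3 (Trg.right (Trg.left (Trg.right (Trg.right (Trg.left (Trg.left (chamber 1 1))))))) (Trg.right (Trg.right (Trg.left (Trg.left (Trg.right (Trg.right (chamberN 5 14))))))) :=
  HoldsN.of_red (k := 16) (m := 16) (leaf ok3 (G176 _ rfl) (G384 _ rfl) (G238 _ rfl) (by decide +kernel))
theorem l195 : HoldsN X3 (Trg.right (Trg.right (Trg.right (Trg.left (Trg.left (chamber 1 1)))))) (Trg.left (Trg.left (Trg.right (Trg.right (chamberN 5 14))))) :=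
  HoldsN.of_red (k := 16) (m := 16) (leaf ok3 (G119 _ rfl) (G361 _ rfl) (G269 _ rfl) (by decide +kernel))
theorem l196 : HoldsN X3 (Trg.left (Trg.right (Trg.left (Trg.left (chamber 1 1))))) (Trg.right (Trg.left (Trg.right (Trg.right (chamberN 5 14))))) :=
  HoldsN.of_red (k := 16) (m := 16) (leaf ok3 (G170 _ rfl) (G322 _ rfl) (G295 _ rfl) (by decide +kernel))
theorem l197 : HoldsN X3 (Trg.right (Trg.right (Trg.left (Trg.left (chamber 1 1))))) (Trg.right (Trg.left (Trg.right (Trg.right (chamberN 5 14))))) :=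
  HoldsN.of_red (k := 16) (m := 16) (leaf ok3 (G170 _ rfl) (G326 _ rfl) (G270 _ rfl) (by decide +kernel))
theorem l198 : HoldsN X3 (Trg.left (Trg.right (Trg.left (Trg.left (chamber 1 1))))) (Trg.right (Trg.right (Trg.right (chamberN 5 14)))) :=
  HoldsN.of_red (k := 16) (m := 16) (leaf ok3 (G93 _ rfl) (G332 _ rfl) (G278 _ rfl) (by decide +kernel))
theorem l199 : HoldsN X3 (Trg.right (Trg.right (Trg.left (Trg.left (chamber 1 1))))) (Trg.left (Trg.right (Trg.right (Trg.right (chamberN 5 14))))) :=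
  HoldsN.of_red (k := 16) (m := 16) (leaf ok3 (G91 _ rfl) (G380 _ rfl) (G248 _ rfl) (by decide +kernel))

end Vale.Agent.Lib.P154N.D8
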