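import Vale.Agent.Lib.P154N.D8.Data
import Vale.Agent.Lib.P154N.Red

/-!
# Leaves of the tree of triangles
-/

namespace Vale.Agent.Lib.P154N.D8

open Vale.Agent.Lib.P154K Vale.Agent.Lib.P154Neg

theorem l200 : HoldsN X3 (Trg.right (Trg.right (Trg.left (Trg.left (chamber 1 1))))) (Trg.right (Trg.right (Trg.right (Trg.right (chamberN 5 14))))) :=
  HoldsN.of_red (k := 16) (m := 16) (leaf ok3 (G98 _ rfl) (G379 _ rfl) (G224 _ rfl) (by decide +kernel))
theorem l201 : HoldsN X3 (Trg.left (Trg.right (Trg.left (chamber 1 1)))) (Trg.left (Trg.left (Trg.right (Trg.right (chamberN 5 14))))) :=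
  HoldsN.of_red (k := 16) (m := 16) (leaf ok3 (G91 _ rfl) (G393 _ rfl) (G146 _ rfl) (by decide +kernel))
theorem l202 : HoldsN X3 (Trg.left (Trg.right (Trg.left (chamber 1 1)))) (Trg.right (Trg.left (Trg.right (Trg.right (chamberN 5 14))))) :=
  HoldsN.of_red (k := 16) (m := 16) (leaf ok3 (G112 _ rfl) (G337 _ rfl) (G219 _ rfl) (by decide +kernel))
theorem l203 : HoldsN X3 (Trg.left (Trg.right (Trg.right (Trg.left (chamber 1 1))))) (Trg.left (Trg.right (Trg.right (chamberN 5 14)))) :=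
  HoldsN.of_red (k := 16) (m := 16) (leaf ok3 (G67 _ rfl) (G344 _ rfl) (G278 _ rfl) (by decide +kernel))
theorem l204 : HoldsN X3 (Trg.right (Trg.right (Trg.right (Trg.left (chamber 1 1))))) (Trg.left (Trg.left (Trg.right (Trg.right (chamberN 5 14))))) :=
  HoldsN.of_red (k := 16) (m := 16) (leaf ok3 (G91 _ rfl) (G393 _ rfl) (G220 _ rfl) (by decide +kernel))
theorem l205 : HoldsN X3 (Trg.right (Trg.right (Trg.right (Trg.left (chamber 1 1))))) (Trg.right (Trg.left (Trg.right (Trg.right (chamberN 5 14))))) :=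
  HoldsN.of_red (k := 16) (m := 16) (leaf ok3 (G112 _ rfl) (G334 _ rfl) (G270 _ rfl) (by decide +kernel))
theorem l206 : HoldsN X3 (Trg.left (Trg.right (Trg.left (chamber 1 1)))) (Trg.right (Trg.right (Trg.right (chamberN 5 14)))) :=
  HoldsN.of_red (k := 16) (m := 16) (leaf ok3 (G52 _ rfl) (G407 _ rfl) (G150 _ rfl) (by decide +kernel))
theorem l207 : HoldsN X3 (Trg.left (Trg.right (Trg.right (Trg.left (chamber 1 1))))) (Trg.right (Trg.right (Trg.right (chamberN 5 14)))) :=
  HoldsN.of_red (k := 16) (m := 16) (leaf ok3 (G29 _ rfl) (G412 _ rfl) (G285 _ rfl) (by decide +kernel))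
theorem l208 : HoldsN X3 (Trg.right (Trg.right (Trg.right (Trg.left (chamber 1 1))))) (Trg.right (Trg.right (Trg.right (chamberN 5 14)))) :=
  HoldsN.of_red (k := 16) (m := 16) (leaf ok3 (G52 _ rfl) (G405 _ rfl) (G225 _ rfl) (by decide +kernel))
theorem l209 : HoldsN X3 (Trg.left (Trg.right (chamber 1 1))) (Trg.left (Trg.left (chamberN 5 14))) :=
  HoldsN.of_red (k := 16) (m := 16) (leaf ok3 (G13 _ rfl) (G159 _ rfl) (G346 _ rfl) (by decide +kernel))

end Vale.Agent.Lib.P154N.D8
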