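import Vale.Agent.Lib.P154N.D8.Data
import Vale.Agent.Lib.P154N.Red

/-!
# Leaves of the tree of triangles
-/

namespace Vale.Agent.Lib.P154N.D8

open Vale.Agent.Lib.P154K Vale.Agent.Lib.P154Neg

theorem l210 : HoldsN X3 (Trg.left (Trg.right (chamber 1 1))) (Trg.right (Trg.left (chamberN 5 14))) :=
  HoldsN.of_red (k := 16) (m := 16) (leaf ok3 (G11 _ rfl) (G85 _ rfl) (G435 _ rfl) (by decide +kernel))
theorem l211 : HoldsN X3 (Trg.left (Trg.left (Trg.right (chamber 1 1)))) (Trg.left (Trg.right (chamberN 5 14))) :=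
  HoldsN.of_red (k := 16) (m := 16) (leaf ok3 (G3 _ rfl) (G396 _ rfl) (G395 _ rfl) (by decide +kernel))
theorem l212 : HoldsN X3 (Trg.left (Trg.right (Trg.left (Trg.right (chamber 1 1))))) (Trg.left (Trg.right (chamberN 5 14))) :=
  HoldsN.of_red (k := 16) (m := 16) (leaf ok3 (G1 _ rfl) (G415 _ rfl) (G439 _ rfl) (by decide +kernel))
theorem l213 : HoldsN X3 (Trg.right (Trg.right (Trg.left (Trg.right (chamber 1 1))))) (Trg.left (Trg.right (chamberN 5 14))) :=
  HoldsN.of_red (k := 16) (m := 16) (leaf ok3 (G3 _ rfl) (G396 _ rfl) (G430 _ rfl) (by decide +kernel))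
theorem l214 : HoldsN X3 (Trg.left (Trg.right (chamber 1 1))) (Trg.right (Trg.right (chamberN 5 14))) :=
  HoldsN.of_red (k := 16) (m := 16) (leaf ok3 (G13 _ rfl) (G344 _ rfl) (G346 _ rfl) (by decide +kernel))
theorem l215 : HoldsN X3 (Trg.left (Trg.left (Trg.right (Trg.right (chamber 1 1))))) (Trg.left (Trg.left (Trg.left (chamberN 5 14)))) :=
  HoldsN.of_red (k := 16) (m := 16) (leaf ok3 (G65 _ rfl) (G226 _ rfl) (G393 _ rfl) (by decide +kernel))
theorem l216 : HoldsN X3 (Trg.right (Trg.left (Trg.right (Trg.right (chamber 1 1))))) (Trg.left (Trg.left (Trg.left (chamberN 5 14)))) :=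
  HoldsN.of_red (k := 16) (m := 16) (leaf ok3 (G93 _ rfl) (G278 _ rfl) (G332 _ rfl) (by decide +kernel))
theorem l217 : HoldsN X3 (Trg.left (Trg.left (Trg.right (Trg.right (chamber 1 1))))) (Trg.right (Trg.left (Trg.left (chamberN 5 14)))) :=
  HoldsN.of_red (k := 16) (m := 16) (leaf ok3 (G121 _ rfl) (G221 _ rfl) (G332 _ rfl) (by decide +kernel))
theorem l218 : HoldsN X3 (Trg.right (Trg.left (Trg.right (Trg.right (chamber 1 1))))) (Trg.right (Trg.left (Trg.left (chamberN 5 14)))) :=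
  HoldsN.of_red (k := 16) (m := 16) (leaf ok3 (G170 _ rfl) (G270 _ rfl) (G326 _ rfl) (by decide +kernel))
theorem l219 : HoldsN X3 (Trg.left (Trg.left (Trg.right (Trg.right (chamber 1 1))))) (Trg.right (Trg.left (chamberN 5 14))) :=
  HoldsN.of_red (k := 16) (m := 16) (leaf ok3 (G65 _ rfl) (G153 _ rfl) (G393 _ rfl) (by decide +kernel))

end Vale.Agent.Lib.P154N.D8
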