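import Vale.Agent.Lib.P154N.D8.Data
import Vale.Agent.Lib.P154N.Red

/-!
# Leaves of the tree of triangles
-/

namespace Vale.Agent.Lib.P154N.D8

open Vale.Agent.Lib.P154K Vale.Agent.Lib.P154Neg

theorem l220 : HoldsN X3 (Trg.right (Trg.left (Trg.right (Trg.right (chamber 1 1))))) (Trg.right (Trg.left (chamberN 5 14))) :=
  HoldsN.of_red (k := 16) (m := 16) (leaf ok3 (G93 _ rfl) (G227 _ rfl) (G337 _ rfl) (by decide +kernel))
theorem l221 : HoldsN X3 (Trg.right (Trg.right (Trg.right (chamber 1 1)))) (Trg.left (Trg.left (Trg.left (chamberN 5 14)))) :=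
  HoldsN.of_red (k := 16) (m := 16) (leaf ok3 (G33 _ rfl) (G231 _ rfl) (G393 _ rfl) (by decide +kernel))
theorem l222 : HoldsN X3 (Trg.right (Trg.right (Trg.right (chamber 1 1)))) (Trg.right (Trg.left (Trg.left (chamberN 5 14)))) :=
  HoldsN.of_red (k := 16) (m := 16) (leaf ok3 (G93 _ rfl) (G227 _ rfl) (G337 _ rfl) (by decide +kernel))
theorem l223 : HoldsN X3 (Trg.right (Trg.right (Trg.right (chamber 1 1)))) (Trg.right (Trg.left (chamberN 5 14))) :=
  HoldsN.of_red (k := 16) (m := 16) (leaf ok3 (G33 _ rfl) (G158 _ rfl) (G407 _ rfl) (by decide +kernel))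
theorem l224 : HoldsN X3 (Trg.left (Trg.right (Trg.right (chamber 1 1)))) (Trg.left (Trg.right (chamberN 5 14))) :=
  HoldsN.of_red (k := 16) (m := 16) (leaf ok3 (G20 _ rfl) (G344 _ rfl) (G344 _ rfl) (by decide +kernel))
theorem l225 : HoldsN X3 (Trg.right (Trg.right (Trg.right (chamber 1 1)))) (Trg.left (Trg.right (chamberN 5 14))) :=
  HoldsN.of_red (k := 16) (m := 16) (leaf ok3 (G8 _ rfl) (G396 _ rfl) (G369 _ rfl) (by decide +kernel))
theorem l226 : HoldsN X3 (Trg.left (Trg.left (Trg.right (Trg.right (chamber 1 1))))) (Trg.left (Trg.right (Trg.right (chamberN 5 14)))) :=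
  HoldsN.of_red (k := 16) (m := 16) (leaf ok3 (G79 _ rfl) (G332 _ rfl) (G332 _ rfl) (by decide +kernel))
theorem l227 : HoldsN X3 (Trg.right (Trg.left (Trg.right (Trg.right (chamber 1 1))))) (Trg.left (Trg.right (Trg.right (chamberN 5 14)))) :=
  HoldsN.of_red (k := 16) (m := 16) (leaf ok3 (G121 _ rfl) (G332 _ rfl) (G322 _ rfl) (by decide +kernel))
theorem l228 : HoldsN X3 (Trg.left (Trg.left (Trg.right (Trg.right (chamber 1 1))))) (Trg.right (Trg.right (Trg.right (chamberN 5 14)))) :=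
  HoldsN.of_red (k := 16) (m := 16) (leaf ok3 (G64 _ rfl) (G353 _ rfl) (G369 _ rfl) (by decide +kernel))
theorem l229 : HoldsN X3 (Trg.right (Trg.left (Trg.right (Trg.right (chamber 1 1))))) (Trg.right (Trg.right (Trg.right (chamberN 5 14)))) :=
  HoldsN.of_red (k := 16) (m := 16) (leaf ok3 (G93 _ rfl) (G332 _ rfl) (G332 _ rfl) (by decide +kernel))

end Vale.Agent.Lib.P154N.D8
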