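import Vale.Agent.Lib.P154N.D8.Data
import Vale.Agent.Lib.P154N.Red

/-!
# Leaves of the tree of triangles
-/

namespace Vale.Agent.Lib.P154N.D8

open Vale.Agent.Lib.P154K Vale.Agent.Lib.P154Neg

theorem l240 : HoldsN X3 (Trg.right (Trg.left (chamber 1 1))) (Trg.right (Trg.left (Trg.left (chamberNR 5 14)))) :=
  HoldsN.of_red (k := 16) (m := 16) (leaf ok3 (G114 _ rfl) (G341 _ rfl) (G142 _ rfl) (by decide +kernel))
theorem l241 : HoldsN X3 (Trg.left (Trg.right (Trg.left (chamber 1 1)))) (Trg.right (Trg.left (chamberNR 5 14))) :=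
  HoldsN.of_red (k := 16) (m := 16) (leaf ok3 (G95 _ rfl) (G371 _ rfl) (G76 _ rfl) (by decide +kernel))
theorem l242 : HoldsN X3 (Trg.right (Trg.right (Trg.left (chamber 1 1)))) (Trg.right (Trg.left (chamberNR 5 14))) :=
  HoldsN.of_red (k := 16) (m := 16) (leaf ok3 (G55 _ rfl) (G373 _ rfl) (G76 _ rfl) (by decide +kernel))
theorem l243 : HoldsN X3 (Trg.left (Trg.left (Trg.left (Trg.left (chamber 1 1))))) (Trg.left (Trg.right (chamberNR 5 14))) :=
  HoldsN.of_red (k := 16) (m := 16) (leaf ok3 (G46 _ rfl) (G430 _ rfl) (G148 _ rfl) (by decide +kernel))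
theorem l244 : HoldsN X3 (Trg.right (Trg.left (Trg.left (Trg.left (chamber 1 1))))) (Trg.left (Trg.right (chamberNR 5 14))) :=
  HoldsN.of_red (k := 16) (m := 16) (leaf ok3 (G8 _ rfl) (G435 _ rfl) (G188 _ rfl) (by decide +kernel))
theorem l245 : HoldsN X3 (Trg.right (Trg.left (Trg.left (chamber 1 1)))) (Trg.left (Trg.right (chamberNR 5 14))) :=
  HoldsN.of_red (k := 16) (m := 16) (leaf ok3 (G67 _ rfl) (G344 _ rfl) (G149 _ rfl) (by decide +kernel))
theorem l246 : HoldsN X3 (Trg.left (Trg.right (Trg.left (chamber 1 1)))) (Trg.left (Trg.left (Trg.right (chamberNR 5 14)))) :=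
  HoldsN.of_red (k := 16) (m := 16) (leaf ok3 (G62 _ rfl) (G432 _ rfl) (G78 _ rfl) (by decide +kernel))
theorem l247 : HoldsN X3 (Trg.left (Trg.right (Trg.left (chamber 1 1)))) (Trg.left (Trg.right (Trg.left (Trg.right (chamberNR 5 14))))) :=
  HoldsN.of_red (k := 16) (m := 16) (leaf ok3 (G32 _ rfl) (G452 _ rfl) (G77 _ rfl) (by decide +kernel))
theorem l248 : HoldsN X3 (Trg.left (Trg.right (Trg.left (chamber 1 1)))) (Trg.right (Trg.right (Trg.left (Trg.right (chamberNR 5 14))))) :=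
  HoldsN.of_red (k := 16) (m := 16) (leaf ok3 (G60 _ rfl) (G432 _ rfl) (G78 _ rfl) (by decide +kernel))
theorem l249 : HoldsN X3 (Trg.left (Trg.right (Trg.right (Trg.left (chamber 1 1))))) (Trg.left (Trg.left (Trg.right (chamberNR 5 14)))) :=
  HoldsN.of_red (k := 16) (m := 16) (leaf ok3 (G22 _ rfl) (G451 _ rfl) (G124 _ rfl) (by decide +kernel))

end Vale.Agent.Lib.P154N.D8
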