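import Vale.Agent.Lib.P154N.D8.Data
import Vale.Agent.Lib.P154N.Red

/-!
# Leaves of the tree of triangles
-/

namespace Vale.Agent.Lib.P154N.D8

open Vale.Agent.Lib.P154K Vale.Agent.Lib.P154Neg

theorem l270 : HoldsN X3 (Trg.right (Trg.right (Trg.right (Trg.left (chamber 1 1))))) (Trg.right (Trg.left (Trg.right (Trg.right (chamberNR 5 14))))) :=
  HoldsN.of_red (k := 16) (m := 16) (leaf ok3 (G170 _ rfl) (G339 _ rfl) (G193 _ rfl) (by decide +kernel))
theorem l271 : HoldsN X3 (Trg.right (Trg.left (chamber 1 1))) (Trg.right (Trg.right (Trg.right (chamberNR 5 14)))) :=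
  HoldsN.of_red (k := 16) (m := 16) (leaf ok3 (G53 _ rfl) (G409 _ rfl) (G81 _ rfl) (by decide +kernel))
theorem l272 : HoldsN X3 (Trg.left (Trg.right (chamber 1 1))) (Trg.left (Trg.left (chamberNR 5 14))) :=
  HoldsN.of_red (k := 16) (m := 16) (leaf ok3 (G13 _ rfl) (G346 _ rfl) (G156 _ rfl) (by decide +kernel))
theorem l273 : HoldsN X3 (Trg.left (Trg.right (chamber 1 1))) (Trg.right (Trg.left (chamberNR 5 14))) :=
  HoldsN.of_red (k := 16) (m := 16) (leaf ok3 (G12 _ rfl) (G435 _ rfl) (G83 _ rfl) (by decide +kernel))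
theorem l274 : HoldsN X3 (Trg.left (Trg.left (Trg.right (chamber 1 1)))) (Trg.left (Trg.right (chamberNR 5 14))) :=
  HoldsN.of_red (k := 16) (m := 16) (leaf ok3 (G3 _ rfl) (G435 _ rfl) (G235 _ rfl) (by decide +kernel))
theorem l275 : HoldsN X3 (Trg.left (Trg.right (Trg.left (Trg.right (chamber 1 1))))) (Trg.left (Trg.right (chamberNR 5 14))) :=
  HoldsN.of_red (k := 16) (m := 16) (leaf ok3 (G1 _ rfl) (G452 _ rfl) (G374 _ rfl) (by decide +kernel))
theorem l276 : HoldsN X3 (Trg.right (Trg.right (Trg.left (Trg.right (chamber 1 1))))) (Trg.left (Trg.right (chamberNR 5 14))) :=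
  HoldsN.of_red (k := 16) (m := 16) (leaf ok3 (G3 _ rfl) (G435 _ rfl) (G372 _ rfl) (by decide +kernel))
theorem l277 : HoldsN X3 (Trg.left (Trg.right (chamber 1 1))) (Trg.right (Trg.right (chamberNR 5 14))) :=
  HoldsN.of_red (k := 16) (m := 16) (leaf ok3 (G13 _ rfl) (G346 _ rfl) (G233 _ rfl) (by decide +kernel))
theorem l278 : HoldsN X3 (Trg.left (Trg.left (Trg.right (Trg.right (chamber 1 1))))) (Trg.left (Trg.left (Trg.left (chamberNR 5 14)))) :=
  HoldsN.of_red (k := 16) (m := 16) (leaf ok3 (G66 _ rfl) (G393 _ rfl) (G222 _ rfl) (by decide +kernel))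
theorem l279 : HoldsN X3 (Trg.right (Trg.left (Trg.right (Trg.right (chamber 1 1))))) (Trg.left (Trg.left (Trg.left (chamberNR 5 14)))) :=
  HoldsN.of_red (k := 16) (m := 16) (leaf ok3 (G112 _ rfl) (G341 _ rfl) (G218 _ rfl) (by decide +kernel))

end Vale.Agent.Lib.P154N.D8
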