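import Vale.Agent.Lib.P154N.D8.Data
import Vale.Agent.Lib.P154N.Red

/-!
# Leaves of the tree of triangles
-/

namespace Vale.Agent.Lib.P154N.D8

open Vale.Agent.Lib.P154K Vale.Agent.Lib.P154Neg

theorem l30 : HoldsN X2 (Trg.left (Trg.left (Trg.right (chamberN 5 14)))) (Trg.left (Trg.left (Trg.right (Trg.right (chamberN 5 14))))) :=
  HoldsN.of_red (k := 16) (m := 16) (leaf ok2 (G386 _ rfl) (G177 _ rfl) (G210 _ rfl) (by decide +kernel))
theorem l31 : HoldsN X2 (Trg.left (Trg.left (Trg.right (chamberN 5 14)))) (Trg.right (Trg.left (Trg.right (Trg.right (chamberN 5 14))))) :=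
  HoldsN.of_red (k := 16) (m := 16) (leaf ok2 (G327 _ rfl) (G237 _ rfl) (G212 _ rfl) (by decide +kernel))
theorem l32 : HoldsN X2 (Trg.left (Trg.right (Trg.left (Trg.right (chamberN 5 14))))) (Trg.left (Trg.left (Trg.right (Trg.right (chamberN 5 14))))) :=
  HoldsN.of_red (k := 16) (m := 16) (leaf ok2 (G399 _ rfl) (G177 _ rfl) (G176 _ rfl) (by decide +kernel))
theorem l33 : HoldsN X2 (Trg.left (Trg.right (Trg.left (Trg.right (chamberN 5 14))))) (Trg.right (Trg.left (Trg.right (Trg.right (chamberN 5 14))))) :=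
  HoldsN.of_red (k := 16) (m := 16) (leaf ok2 (G331 _ rfl) (G237 _ rfl) (G179 _ rfl) (by decide +kernel))
theorem l34 : HoldsN X2 (Trg.right (Trg.right (Trg.left (Trg.right (chamberN 5 14))))) (Trg.left (Trg.right (Trg.right (chamberN 5 14)))) :=
  HoldsN.of_red (k := 16) (m := 16) (leaf ok2 (G336 _ rfl) (G179 _ rfl) (G206 _ rfl) (by decide +kernel))
theorem l35 : HoldsN X2 (Trg.left (Trg.left (Trg.right (chamberN 5 14)))) (Trg.right (Trg.right (Trg.right (chamberN 5 14)))) :=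
  HoldsN.of_red (k := 16) (m := 16) (leaf ok2 (G392 _ rfl) (G177 _ rfl) (G139 _ rfl) (by decide +kernel))
theorem l36 : HoldsN X2 (Trg.left (Trg.right (Trg.left (Trg.right (chamberN 5 14))))) (Trg.right (Trg.right (Trg.right (chamberN 5 14)))) :=
  HoldsN.of_red (k := 16) (m := 16) (leaf ok2 (G402 _ rfl) (G177 _ rfl) (G105 _ rfl) (by decide +kernel))
theorem l37 : HoldsN X2 (Trg.right (Trg.right (Trg.left (Trg.right (chamberN 5 14))))) (Trg.right (Trg.right (Trg.right (chamberN 5 14)))) :=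
  HoldsN.of_red (k := 16) (m := 16) (leaf ok2 (G392 _ rfl) (G177 _ rfl) (G131 _ rfl) (by decide +kernel))
theorem l38 : HoldsN X2 (Trg.left (Trg.right (Trg.right (chamberN 5 14)))) (Trg.left (Trg.left (Trg.left (chamberN 5 14)))) :=
  HoldsN.of_red (k := 16) (m := 16) (leaf ok2 (G331 _ rfl) (G259 _ rfl) (G179 _ rfl) (by decide +kernel))
theorem l39 : HoldsN X2 (Trg.left (Trg.left (Trg.right (Trg.right (chamberN 5 14))))) (Trg.right (Trg.left (Trg.left (chamberN 5 14)))) :=
  HoldsN.of_red (k := 16) (m := 16) (leaf ok2 (G322 _ rfl) (G292 _ rfl) (G237 _ rfl) (by decide +kernel))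

end Vale.Agent.Lib.P154N.D8
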