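import Vale.Agent.Lib.P154N.D8.Data
import Vale.Agent.Lib.P154N.Red

/-!
# Leaves of the tree of triangles
-/

namespace Vale.Agent.Lib.P154N.D8

open Vale.Agent.Lib.P154K Vale.Agent.Lib.P154Neg

theorem l320 : HoldsN X4 (Trg.left (Trg.right (Trg.left (chamber 1 1)))) (Trg.left (Trg.right (Trg.left (Trg.right (chamberN 5 14))))) :=
  HoldsN.of_red (k := 16) (m := 16) (leaf ok4 (G31 _ rfl) (G452 _ rfl) (G80 _ rfl) (by decide +kernel))
theorem l321 : HoldsN X4 (Trg.left (Trg.left (Trg.right (Trg.left (chamber 1 1))))) (Trg.right (Trg.right (Trg.left (Trg.right (chamberN 5 14))))) :=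
  HoldsN.of_red (k := 16) (m := 16) (leaf ok4 (G41 _ rfl) (G430 _ rfl) (G136 _ rfl) (by decide +kernel))
theorem l322 : HoldsN X4 (Trg.right (Trg.left (Trg.right (Trg.left (chamber 1 1))))) (Trg.left (Trg.right (Trg.right (Trg.left (Trg.right (chamberN 5 14)))))) :=
  HoldsN.of_red (k := 16) (m := 16) (leaf ok4 (G58 _ rfl) (G448 _ rfl) (G99 _ rfl) (by decide +kernel))
theorem l323 : HoldsN X4 (Trg.right (Trg.left (Trg.right (Trg.left (chamber 1 1))))) (Trg.right (Trg.right (Trg.right (Trg.left (Trg.right (chamberN 5 14)))))) :=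
  HoldsN.of_red (k := 16) (m := 16) (leaf ok4 (G39 _ rfl) (G460 _ rfl) (G101 _ rfl) (by decide +kernel))
theorem l324 : HoldsN X4 (Trg.left (Trg.right (Trg.right (Trg.left (chamber 1 1))))) (Trg.left (Trg.left (Trg.left (Trg.left (Trg.right (chamberN 5 14)))))) :=
  HoldsN.of_red (k := 16) (m := 16) (leaf ok4 (G15 _ rfl) (G448 _ rfl) (G306 _ rfl) (by decide +kernel))
theorem l325 : HoldsN X4 (Trg.left (Trg.right (Trg.right (Trg.left (chamber 1 1))))) (Trg.right (Trg.left (Trg.left (Trg.left (Trg.right (chamberN 5 14)))))) :=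
  HoldsN.of_red (k := 16) (m := 16) (leaf ok4 (G35 _ rfl) (G444 _ rfl) (G281 _ rfl) (by decide +kernel))
theorem l326 : HoldsN X4 (Trg.left (Trg.right (Trg.right (Trg.left (chamber 1 1))))) (Trg.right (Trg.left (Trg.left (Trg.right (chamberN 5 14))))) :=
  HoldsN.of_red (k := 16) (m := 16) (leaf ok4 (G15 _ rfl) (G448 _ rfl) (G342 _ rfl) (by decide +kernel))
theorem l327 : HoldsN X4 (Trg.left (Trg.right (Trg.right (Trg.left (chamber 1 1))))) (Trg.left (Trg.right (Trg.left (Trg.right (chamberN 5 14))))) :=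
  HoldsN.of_red (k := 16) (m := 16) (leaf ok4 (G6 _ rfl) (G463 _ rfl) (G230 _ rfl) (by decide +kernel))
theorem l328 : HoldsN X4 (Trg.left (Trg.right (Trg.right (Trg.left (chamber 1 1))))) (Trg.left (Trg.right (Trg.right (Trg.left (Trg.right (chamberN 5 14)))))) :=
  HoldsN.of_red (k := 16) (m := 16) (leaf ok4 (G27 _ rfl) (G448 _ rfl) (G249 _ rfl) (by decide +kernel))
theorem l329 : HoldsN X4 (Trg.left (Trg.right (Trg.right (Trg.left (chamber 1 1))))) (Trg.right (Trg.right (Trg.right (Trg.left (Trg.right (chamberN 5 14)))))) :=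
  HoldsN.of_red (k := 16) (m := 16) (leaf ok4 (G14 _ rfl) (G457 _ rfl) (G251 _ rfl) (by decide +kernel))

end Vale.Agent.Lib.P154N.D8
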