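import Vale.Agent.Lib.P154N.D8.Data
import Vale.Agent.Lib.P154N.Red

/-!
# Leaves of the tree of triangles
-/

namespace Vale.Agent.Lib.P154N.D8

open Vale.Agent.Lib.P154K Vale.Agent.Lib.P154Neg

theorem l340 : HoldsN X4 (Trg.left (Trg.right (Trg.left (chamber 1 1)))) (Trg.right (Trg.left (Trg.right (Trg.right (chamberN 5 14))))) :=
  HoldsN.of_red (k := 16) (m := 16) (leaf ok4 (G112 _ rfl) (G337 _ rfl) (G219 _ rfl) (by decide +kernel))
theorem l341 : HoldsN X4 (Trg.left (Trg.right (Trg.right (Trg.left (chamber 1 1))))) (Trg.left (Trg.right (Trg.right (chamberN 5 14)))) :=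
  HoldsN.of_red (k := 16) (m := 16) (leaf ok4 (G67 _ rfl) (G344 _ rfl) (G278 _ rfl) (by decide +kernel))
theorem l342 : HoldsN X4 (Trg.right (Trg.right (Trg.right (Trg.left (chamber 1 1))))) (Trg.left (Trg.left (Trg.right (Trg.right (chamberN 5 14))))) :=
  HoldsN.of_red (k := 16) (m := 16) (leaf ok4 (G91 _ rfl) (G393 _ rfl) (G220 _ rfl) (by decide +kernel))
theorem l343 : HoldsN X4 (Trg.right (Trg.right (Trg.right (Trg.left (chamber 1 1))))) (Trg.right (Trg.left (Trg.right (Trg.right (chamberN 5 14))))) :=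
  HoldsN.of_red (k := 16) (m := 16) (leaf ok4 (G112 _ rfl) (G334 _ rfl) (G270 _ rfl) (by decide +kernel))
theorem l344 : HoldsN X4 (Trg.left (Trg.left (Trg.right (Trg.left (chamber 1 1))))) (Trg.right (Trg.right (Trg.right (chamberN 5 14)))) :=
  HoldsN.of_red (k := 16) (m := 16) (leaf ok4 (G52 _ rfl) (G405 _ rfl) (G187 _ rfl) (by decide +kernel))
theorem l345 : HoldsN X4 (Trg.left (Trg.right (Trg.left (Trg.right (Trg.left (chamber 1 1)))))) (Trg.left (Trg.left (Trg.right (Trg.right (Trg.right (chamberN 5 14)))))) :=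
  HoldsN.of_red (k := 16) (m := 16) (leaf ok4 (G86 _ rfl) (G421 _ rfl) (G180 _ rfl) (by decide +kernel))
theorem l346 : HoldsN X4 (Trg.right (Trg.right (Trg.left (Trg.right (Trg.left (chamber 1 1)))))) (Trg.left (Trg.left (Trg.right (Trg.right (Trg.right (chamberN 5 14)))))) :=
  HoldsN.of_red (k := 16) (m := 16) (leaf ok4 (G70 _ rfl) (G420 _ rfl) (G208 _ rfl) (by decide +kernel))
theorem l347 : HoldsN X4 (Trg.right (Trg.left (Trg.right (Trg.left (chamber 1 1))))) (Trg.right (Trg.left (Trg.right (Trg.right (Trg.right (chamberN 5 14)))))) :=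
  HoldsN.of_red (k := 16) (m := 16) (leaf ok4 (G48 _ rfl) (G441 _ rfl) (G187 _ rfl) (by decide +kernel))
theorem l348 : HoldsN X4 (Trg.left (Trg.right (Trg.left (Trg.right (Trg.left (chamber 1 1)))))) (Trg.right (Trg.right (Trg.right (Trg.right (chamberN 5 14))))) :=
  HoldsN.of_red (k := 16) (m := 16) (leaf ok4 (G86 _ rfl) (G421 _ rfl) (G143 _ rfl) (by decide +kernel))
theorem l349 : HoldsN X4 (Trg.right (Trg.right (Trg.left (Trg.right (Trg.left (chamber 1 1)))))) (Trg.right (Trg.right (Trg.right (Trg.right (chamberN 5 14))))) :=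
  HoldsN.of_red (k := 16) (m := 16) (leaf ok4 (G70 _ rfl) (G420 _ rfl) (G184 _ rfl) (by decide +kernel))

end Vale.Agent.Lib.P154N.D8
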