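import Vale.Agent.Lib.P154N.D8.Data
import Vale.Agent.Lib.P154N.Red

/-!
# Leaves of the tree of triangles
-/

namespace Vale.Agent.Lib.P154N.D8

open Vale.Agent.Lib.P154K Vale.Agent.Lib.P154Neg

theorem l40 : HoldsN X2 (Trg.left (Trg.right (Trg.left (Trg.right (Trg.right (chamberN 5 14)))))) (Trg.right (Trg.left (Trg.left (chamberN 5 14)))) :=
  HoldsN.of_red (k := 16) (m := 16) (leaf ok2 (G316 _ rfl) (G310 _ rfl) (G262 _ rfl) (by decide +kernel))
theorem l41 : HoldsN X2 (Trg.right (Trg.right (Trg.left (Trg.right (Trg.right (chamberN 5 14)))))) (Trg.right (Trg.left (Trg.left (chamberN 5 14)))) :=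
  HoldsN.of_red (k := 16) (m := 16) (leaf ok2 (G318 _ rfl) (G291 _ rfl) (G262 _ rfl) (by decide +kernel))
theorem l42 : HoldsN X2 (Trg.left (Trg.right (Trg.right (chamberN 5 14)))) (Trg.right (Trg.left (chamberN 5 14))) :=
  HoldsN.of_red (k := 16) (m := 16) (leaf ok2 (G331 _ rfl) (G261 _ rfl) (G179 _ rfl) (by decide +kernel))
theorem l43 : HoldsN X2 (Trg.right (Trg.right (Trg.right (chamberN 5 14)))) (Trg.left (Trg.left (Trg.left (chamberN 5 14)))) :=
  HoldsN.of_red (k := 16) (m := 16) (leaf ok2 (G363 _ rfl) (G195 _ rfl) (G177 _ rfl) (by decide +kernel))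
theorem l44 : HoldsN X2 (Trg.right (Trg.right (Trg.right (chamberN 5 14)))) (Trg.right (Trg.left (Trg.left (chamberN 5 14)))) :=
  HoldsN.of_red (k := 16) (m := 16) (leaf ok2 (G326 _ rfl) (G259 _ rfl) (G212 _ rfl) (by decide +kernel))
theorem l45 : HoldsN X2 (Trg.right (Trg.right (Trg.right (chamberN 5 14)))) (Trg.right (Trg.left (chamberN 5 14))) :=
  HoldsN.of_red (k := 16) (m := 16) (leaf ok2 (G363 _ rfl) (G197 _ rfl) (G161 _ rfl) (by decide +kernel))
theorem l46 : HoldsN X2 (Trg.right (Trg.right (chamberN 5 14))) (Trg.left (Trg.right (chamberN 5 14))) :=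
  HoldsN.of_red (k := 16) (m := 16) (leaf ok2 (G343 _ rfl) (G109 _ rfl) (G179 _ rfl) (by decide +kernel))
theorem l47 : HoldsN X2 (Trg.left (Trg.left (Trg.right (Trg.right (chamberN 5 14))))) (Trg.left (Trg.right (Trg.right (chamberN 5 14)))) :=
  HoldsN.of_red (k := 16) (m := 16) (leaf ok2 (G327 _ rfl) (G237 _ rfl) (G237 _ rfl) (by decide +kernel))
theorem l48 : HoldsN X2 (Trg.right (Trg.left (Trg.right (Trg.right (chamberN 5 14))))) (Trg.left (Trg.left (Trg.right (Trg.right (chamberN 5 14))))) :=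
  HoldsN.of_red (k := 16) (m := 16) (leaf ok2 (G322 _ rfl) (G237 _ rfl) (G262 _ rfl) (by decide +kernel))
theorem l49 : HoldsN X2 (Trg.left (Trg.left (Trg.right (Trg.left (Trg.right (Trg.right (chamberN 5 14))))))) (Trg.left (Trg.right (Trg.left (Trg.right (Trg.right (chamberN 5 14)))))) :=
  HoldsN.of_red (k := 16) (m := 16) (leaf ok2 (G316 _ rfl) (G289 _ rfl) (G289 _ rfl) (by decide +kernel))

end Vale.Agent.Lib.P154N.D8
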