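import Vale.Agent.Lib.P154N.D8.Data
import Vale.Agent.Lib.P154N.Red

/-!
# Leaves of the tree of triangles
-/

namespace Vale.Agent.Lib.P154N.D8

open Vale.Agent.Lib.P154K Vale.Agent.Lib.P154Neg

theorem l420 : HoldsN X4 (Trg.left (Trg.right (Trg.left (Trg.right (chamber 1 1))))) (Trg.left (Trg.left (Trg.left (chamberNR 5 14)))) :=
  HoldsN.of_red (k := 16) (m := 16) (leaf ok4 (G10 _ rfl) (G452 _ rfl) (G155 _ rfl) (by decide +kernel))
theorem l421 : HoldsN X4 (Trg.right (Trg.right (Trg.left (Trg.right (chamber 1 1))))) (Trg.left (Trg.left (Trg.left (chamberNR 5 14)))) :=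
  HoldsN.of_red (k := 16) (m := 16) (leaf ok4 (G24 _ rfl) (G433 _ rfl) (G152 _ rfl) (by decide +kernel))
theorem l422 : HoldsN X4 (Trg.left (Trg.right (chamber 1 1))) (Trg.right (Trg.left (Trg.left (chamberNR 5 14)))) :=
  HoldsN.of_red (k := 16) (m := 16) (leaf ok4 (G67 _ rfl) (G344 _ rfl) (G149 _ rfl) (by decide +kernel))
theorem l423 : HoldsN X4 (Trg.left (Trg.left (Trg.right (chamber 1 1)))) (Trg.right (Trg.left (chamberNR 5 14))) :=
  HoldsN.of_red (k := 16) (m := 16) (leaf ok4 (G25 _ rfl) (G433 _ rfl) (G81 _ rfl) (by decide +kernel))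
theorem l424 : HoldsN X4 (Trg.left (Trg.right (Trg.left (Trg.right (chamber 1 1))))) (Trg.right (Trg.left (chamberNR 5 14))) :=
  HoldsN.of_red (k := 16) (m := 16) (leaf ok4 (G10 _ rfl) (G452 _ rfl) (G83 _ rfl) (by decide +kernel))
theorem l425 : HoldsN X4 (Trg.right (Trg.right (Trg.left (Trg.right (chamber 1 1))))) (Trg.right (Trg.left (chamberNR 5 14))) :=
  HoldsN.of_red (k := 16) (m := 16) (leaf ok4 (G24 _ rfl) (G433 _ rfl) (G82 _ rfl) (by decide +kernel))
theorem l426 : HoldsN X4 (Trg.left (Trg.left (Trg.right (chamber 1 1)))) (Trg.left (Trg.right (chamberNR 5 14))) :=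
  HoldsN.of_red (k := 16) (m := 16) (leaf ok4 (G3 _ rfl) (G435 _ rfl) (G235 _ rfl) (by decide +kernel))
theorem l427 : HoldsN X4 (Trg.left (Trg.right (Trg.left (Trg.right (chamber 1 1))))) (Trg.left (Trg.left (Trg.right (chamberNR 5 14)))) :=
  HoldsN.of_red (k := 16) (m := 16) (leaf ok4 (G2 _ rfl) (G452 _ rfl) (G370 _ rfl) (by decide +kernel))
theorem l428 : HoldsN X4 (Trg.left (Trg.right (Trg.left (Trg.right (chamber 1 1))))) (Trg.left (Trg.right (Trg.left (Trg.right (chamberNR 5 14))))) :=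
  HoldsN.of_red (k := 16) (m := 16) (leaf ok4 (G0 _ rfl) (G463 _ rfl) (G440 _ rfl) (by decide +kernel))
theorem l429 : HoldsN X4 (Trg.left (Trg.right (Trg.left (Trg.right (chamber 1 1))))) (Trg.right (Trg.right (Trg.left (Trg.right (chamberNR 5 14))))) :=
  HoldsN.of_red (k := 16) (m := 16) (leaf ok4 (G2 _ rfl) (G452 _ rfl) (G438 _ rfl) (by decide +kernel))

end Vale.Agent.Lib.P154N.D8
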