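import Vale.Agent.Lib.P154N.D8.Data
import Vale.Agent.Lib.P154N.Red

/-!
# Leaves of the tree of triangles
-/

namespace Vale.Agent.Lib.P154N.D8

open Vale.Agent.Lib.P154K Vale.Agent.Lib.P154Neg

theorem l450 : HoldsN X5 (Trg.left (Trg.left (Trg.left (chamber 1 1)))) (Trg.right (Trg.left (Trg.left (chamberN 5 14)))) :=
  HoldsN.of_red (k := 16) (m := 16) (leaf ok5 (G93 _ rfl) (G278 _ rfl) (G305 _ rfl) (by decide +kernel))
theorem l451 : HoldsN X5 (Trg.left (Trg.left (Trg.left (chamber 1 1)))) (Trg.right (Trg.left (chamberN 5 14))) :=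
  HoldsN.of_red (k := 16) (m := 16) (leaf ok5 (G33 _ rfl) (G231 _ rfl) (G288 _ rfl) (by decide +kernel))
theorem l452 : HoldsN X5 (Trg.right (Trg.left (Trg.left (chamber 1 1)))) (Trg.left (chamberN 5 14)) :=
  HoldsN.of_red (k := 16) (m := 16) (leaf ok5 (G93 _ rfl) (G283 _ rfl) (G283 _ rfl) (by decide +kernel))
theorem l453 : HoldsN X5 (Trg.left (Trg.right (Trg.left (chamber 1 1)))) (Trg.left (Trg.left (Trg.left (chamberN 5 14)))) :=
  HoldsN.of_red (k := 16) (m := 16) (leaf ok5 (G52 _ rfl) (G356 _ rfl) (G226 _ rfl) (by decide +kernel))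
theorem l454 : HoldsN X5 (Trg.left (Trg.right (Trg.right (Trg.left (chamber 1 1))))) (Trg.left (Trg.left (Trg.left (Trg.left (chamberN 5 14))))) :=
  HoldsN.of_red (k := 16) (m := 16) (leaf ok5 (G70 _ rfl) (G281 _ rfl) (G381 _ rfl) (by decide +kernel))
theorem l455 : HoldsN X5 (Trg.left (Trg.right (Trg.right (Trg.left (chamber 1 1))))) (Trg.right (Trg.left (Trg.left (Trg.left (chamberN 5 14))))) :=
  HoldsN.of_red (k := 16) (m := 16) (leaf ok5 (G29 _ rfl) (G412 _ rfl) (G383 _ rfl) (by decide +kernel))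
theorem l456 : HoldsN X5 (Trg.right (Trg.right (Trg.right (Trg.left (chamber 1 1))))) (Trg.left (Trg.left (Trg.left (chamberN 5 14)))) :=
  HoldsN.of_red (k := 16) (m := 16) (leaf ok5 (G52 _ rfl) (G345 _ rfl) (G277 _ rfl) (by decide +kernel))
theorem l457 : HoldsN X5 (Trg.right (Trg.left (chamber 1 1))) (Trg.right (Trg.left (Trg.left (chamberN 5 14)))) :=
  HoldsN.of_red (k := 16) (m := 16) (leaf ok5 (G93 _ rfl) (G283 _ rfl) (G283 _ rfl) (by decide +kernel))
theorem l458 : HoldsN X5 (Trg.left (Trg.right (Trg.left (chamber 1 1)))) (Trg.right (Trg.left (chamberN 5 14))) :=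
  HoldsN.of_red (k := 16) (m := 16) (leaf ok5 (G52 _ rfl) (G356 _ rfl) (G231 _ rfl) (by decide +kernel))
theorem l459 : HoldsN X5 (Trg.right (Trg.right (Trg.left (chamber 1 1)))) (Trg.right (Trg.left (chamberN 5 14))) :=
  HoldsN.of_red (k := 16) (m := 16) (leaf ok5 (G33 _ rfl) (G234 _ rfl) (G288 _ rfl) (by decide +kernel))

end Vale.Agent.Lib.P154N.D8
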