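import Vale.Agent.Lib.P154N.D8.Data
import Vale.Agent.Lib.P154N.Red

/-!
# Leaves of the tree of triangles
-/

namespace Vale.Agent.Lib.P154N.D8

open Vale.Agent.Lib.P154K Vale.Agent.Lib.P154Neg

theorem l50 : HoldsN X2 (Trg.right (Trg.left (Trg.right (Trg.left (Trg.right (Trg.right (chamberN 5 14))))))) (Trg.left (Trg.right (Trg.left (Trg.right (Trg.right (chamberN 5 14)))))) :=
  HoldsN.of_red (k := 16) (m := 16) (leaf ok2 (G315 _ rfl) (G289 _ rfl) (G308 _ rfl) (by decide +kernel))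
theorem l51 : HoldsN X2 (Trg.left (Trg.right (Trg.left (Trg.right (Trg.right (chamberN 5 14)))))) (Trg.right (Trg.right (Trg.left (Trg.right (Trg.right (chamberN 5 14)))))) :=
  HoldsN.of_red (k := 16) (m := 16) (leaf ok2 (G316 _ rfl) (G289 _ rfl) (G262 _ rfl) (by decide +kernel))
theorem l52 : HoldsN X2 (Trg.right (Trg.right (Trg.left (Trg.right (Trg.right (chamberN 5 14)))))) (Trg.right (Trg.left (Trg.right (Trg.right (chamberN 5 14))))) :=
  HoldsN.of_red (k := 16) (m := 16) (leaf ok2 (G318 _ rfl) (G262 _ rfl) (G262 _ rfl) (by decide +kernel))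
theorem l53 : HoldsN X2 (Trg.left (Trg.right (Trg.right (chamberN 5 14)))) (Trg.right (Trg.right (Trg.right (chamberN 5 14)))) :=
  HoldsN.of_red (k := 16) (m := 16) (leaf ok2 (G331 _ rfl) (G237 _ rfl) (G179 _ rfl) (by decide +kernel))
theorem l54 : HoldsN X2 (Trg.right (Trg.right (Trg.right (chamberN 5 14)))) (Trg.left (Trg.left (Trg.right (Trg.right (chamberN 5 14))))) :=
  HoldsN.of_red (k := 16) (m := 16) (leaf ok2 (G360 _ rfl) (G177 _ rfl) (G236 _ rfl) (by decide +kernel))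
theorem l55 : HoldsN X2 (Trg.right (Trg.right (Trg.right (chamberN 5 14)))) (Trg.right (Trg.left (Trg.right (Trg.right (chamberN 5 14))))) :=
  HoldsN.of_red (k := 16) (m := 16) (leaf ok2 (G326 _ rfl) (G237 _ rfl) (G237 _ rfl) (by decide +kernel))
theorem l56 : HoldsN X2 (Trg.right (Trg.right (Trg.right (chamberN 5 14)))) (Trg.right (Trg.right (Trg.right (chamberN 5 14)))) :=
  HoldsN.of_red (k := 16) (m := 16) (leaf ok2 (G380 _ rfl) (G177 _ rfl) (G177 _ rfl) (by decide +kernel))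
theorem l57 : HoldsN X2 (Trg.left (Trg.left (Trg.left (Trg.left (chamberN 5 14))))) (Trg.left (Trg.left (Trg.left (chamberNR 5 14)))) :=
  HoldsN.of_red (k := 16) (m := 16) (leaf ok2 (G298 _ rfl) (G169 _ rfl) (G319 _ rfl) (by decide +kernel))
theorem l58 : HoldsN X2 (Trg.right (Trg.left (Trg.left (Trg.left (chamberN 5 14))))) (Trg.left (Trg.left (Trg.left (Trg.left (chamberNR 5 14))))) :=
  HoldsN.of_red (k := 16) (m := 16) (leaf ok2 (G323 _ rfl) (G168 _ rfl) (G319 _ rfl) (by decide +kernel))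
theorem l59 : HoldsN X2 (Trg.right (Trg.left (Trg.left (Trg.left (chamberN 5 14))))) (Trg.right (Trg.left (Trg.left (Trg.left (chamberNR 5 14))))) :=
  HoldsN.of_red (k := 16) (m := 16) (leaf ok2 (G361 _ rfl) (G129 _ rfl) (G317 _ rfl) (by decide +kernel))

end Vale.Agent.Lib.P154N.D8
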