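import Vale.Agent.Lib.P154N.D8.Data
import Vale.Agent.Lib.P154N.Red

/-!
# Leaves of the tree of triangles
-/

namespace Vale.Agent.Lib.P154N.D8

open Vale.Agent.Lib.P154K Vale.Agent.Lib.P154Neg

theorem l540 : HoldsN X5 (Trg.left (Trg.right (Trg.right (chamber 1 1)))) (Trg.left (Trg.right (Trg.right (chamberN 5 14)))) :=
  HoldsN.of_red (k := 16) (m := 16) (leaf ok5 (G79 _ rfl) (G332 _ rfl) (G332 _ rfl) (by decide +kernel))
theorem l541 : HoldsN X5 (Trg.left (Trg.right (Trg.right (chamber 1 1)))) (Trg.right (Trg.right (Trg.right (chamberN 5 14)))) :=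
  HoldsN.of_red (k := 16) (m := 16) (leaf ok5 (G67 _ rfl) (G332 _ rfl) (G344 _ rfl) (by decide +kernel))
theorem l542 : HoldsN X5 (Trg.right (Trg.right (Trg.right (chamber 1 1)))) (Trg.left (Trg.right (Trg.right (chamberN 5 14)))) :=
  HoldsN.of_red (k := 16) (m := 16) (leaf ok5 (G67 _ rfl) (G344 _ rfl) (G332 _ rfl) (by decide +kernel))
theorem l543 : HoldsN X5 (Trg.right (Trg.right (Trg.right (chamber 1 1)))) (Trg.right (Trg.right (Trg.right (chamberN 5 14)))) :=
  HoldsN.of_red (k := 16) (m := 16) (leaf ok5 (G30 _ rfl) (G369 _ rfl) (G369 _ rfl) (by decide +kernel))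
theorem l544 : HoldsN X5 (Trg.left (Trg.left (Trg.left (chamber 1 1)))) (Trg.left (Trg.left (Trg.left (chamberNR 5 14)))) :=
  HoldsN.of_red (k := 16) (m := 16) (leaf ok5 (G54 _ rfl) (G373 _ rfl) (G140 _ rfl) (by decide +kernel))
theorem l545 : HoldsN X5 (Trg.left (Trg.left (Trg.left (chamber 1 1)))) (Trg.right (Trg.left (Trg.left (chamberNR 5 14)))) :=
  HoldsN.of_red (k := 16) (m := 16) (leaf ok5 (G113 _ rfl) (G341 _ rfl) (G142 _ rfl) (by decide +kernel))
theorem l546 : HoldsN X5 (Trg.left (Trg.left (Trg.left (chamber 1 1)))) (Trg.right (Trg.left (chamberNR 5 14))) :=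
  HoldsN.of_red (k := 16) (m := 16) (leaf ok5 (G55 _ rfl) (G373 _ rfl) (G78 _ rfl) (by decide +kernel))
theorem l547 : HoldsN X5 (Trg.right (Trg.left (Trg.left (chamber 1 1)))) (Trg.left (chamberNR 5 14)) :=
  HoldsN.of_red (k := 16) (m := 16) (leaf ok5 (G114 _ rfl) (G341 _ rfl) (G142 _ rfl) (by decide +kernel))
theorem l548 : HoldsN X5 (Trg.left (Trg.right (Trg.left (chamber 1 1)))) (Trg.left (Trg.left (Trg.left (chamberNR 5 14)))) :=
  HoldsN.of_red (k := 16) (m := 16) (leaf ok5 (G94 _ rfl) (G371 _ rfl) (G76 _ rfl) (by decide +kernel))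
theorem l549 : HoldsN X5 (Trg.right (Trg.right (Trg.left (chamber 1 1)))) (Trg.left (Trg.left (Trg.left (chamberNR 5 14)))) :=
  HoldsN.of_red (k := 16) (m := 16) (leaf ok5 (G54 _ rfl) (G373 _ rfl) (G118 _ rfl) (by decide +kernel))

end Vale.Agent.Lib.P154N.D8
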