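import Vale.Agent.Lib.P154N.D8.Data
import Vale.Agent.Lib.P154N.Red

/-!
# Leaves of the tree of triangles
-/

namespace Vale.Agent.Lib.P154N.D8

open Vale.Agent.Lib.P154K Vale.Agent.Lib.P154Neg

theorem l60 : HoldsN X2 (Trg.left (Trg.left (Trg.left (chamberN 5 14)))) (Trg.right (Trg.left (Trg.left (chamberNR 5 14)))) :=
  HoldsN.of_red (k := 16) (m := 16) (leaf ok2 (G297 _ rfl) (G206 _ rfl) (G320 _ rfl) (by decide +kernel))
theorem l61 : HoldsN X2 (Trg.left (Trg.left (Trg.left (Trg.left (chamberN 5 14))))) (Trg.right (Trg.left (chamberNR 5 14))) :=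
  HoldsN.of_red (k := 16) (m := 16) (leaf ok2 (G273 _ rfl) (G169 _ rfl) (G349 _ rfl) (by decide +kernel))
theorem l62 : HoldsN X2 (Trg.right (Trg.left (Trg.left (Trg.left (chamberN 5 14))))) (Trg.left (Trg.right (Trg.left (chamberNR 5 14)))) :=
  HoldsN.of_red (k := 16) (m := 16) (leaf ok2 (G323 _ rfl) (G139 _ rfl) (G358 _ rfl) (by decide +kernel))
theorem l63 : HoldsN X2 (Trg.right (Trg.left (Trg.left (Trg.left (chamberN 5 14))))) (Trg.left (Trg.right (Trg.right (Trg.left (chamberNR 5 14))))) :=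
  HoldsN.of_red (k := 16) (m := 16) (leaf ok2 (G378 _ rfl) (G128 _ rfl) (G348 _ rfl) (by decide +kernel))
theorem l64 : HoldsN X2 (Trg.right (Trg.left (Trg.left (Trg.left (chamberN 5 14))))) (Trg.right (Trg.right (Trg.right (Trg.left (chamberNR 5 14))))) :=
  HoldsN.of_red (k := 16) (m := 16) (leaf ok2 (G323 _ rfl) (G139 _ rfl) (G348 _ rfl) (by decide +kernel))
theorem l65 : HoldsN X2 (Trg.right (Trg.left (Trg.left (chamberN 5 14)))) (Trg.left (Trg.left (Trg.left (chamberNR 5 14)))) :=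
  HoldsN.of_red (k := 16) (m := 16) (leaf ok2 (G297 _ rfl) (G206 _ rfl) (G320 _ rfl) (by decide +kernel))
theorem l66 : HoldsN X2 (Trg.right (Trg.left (Trg.left (chamberN 5 14)))) (Trg.right (Trg.left (Trg.left (chamberNR 5 14)))) :=
  HoldsN.of_red (k := 16) (m := 16) (leaf ok2 (G292 _ rfl) (G253 _ rfl) (G316 _ rfl) (by decide +kernel))
theorem l67 : HoldsN X2 (Trg.right (Trg.left (Trg.left (chamberN 5 14)))) (Trg.right (Trg.left (chamberNR 5 14))) :=
  HoldsN.of_red (k := 16) (m := 16) (leaf ok2 (G272 _ rfl) (G206 _ rfl) (G320 _ rfl) (by decide +kernel))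
theorem l68 : HoldsN X2 (Trg.left (Trg.right (Trg.left (chamberN 5 14)))) (Trg.left (Trg.left (Trg.left (chamberNR 5 14)))) :=
  HoldsN.of_red (k := 16) (m := 16) (leaf ok2 (G273 _ rfl) (G140 _ rfl) (G358 _ rfl) (by decide +kernel))
theorem l69 : HoldsN X2 (Trg.left (Trg.right (Trg.right (Trg.left (chamberN 5 14))))) (Trg.left (Trg.left (Trg.left (Trg.left (chamberNR 5 14))))) :=
  HoldsN.of_red (k := 16) (m := 16) (leaf ok2 (G314 _ rfl) (G167 _ rfl) (G347 _ rfl) (by decide +kernel))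

end Vale.Agent.Lib.P154N.D8
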