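import Vale.Agent.Lib.P154N.D8.Data
import Vale.Agent.Lib.P154N.Red

/-!
# Leaves of the tree of triangles
-/

namespace Vale.Agent.Lib.P154N.D8

open Vale.Agent.Lib.P154K Vale.Agent.Lib.P154Neg

theorem l620 : HoldsN X6 (Trg.left (Trg.right (Trg.right (Trg.left (chamber 1 1))))) (Trg.left (Trg.left (Trg.left (Trg.left (chamberN 5 14))))) :=
  HoldsN.of_red (k := 16) (m := 16) (leaf ok6 (G70 _ rfl) (G281 _ rfl) (G381 _ rfl) (by decide +kernel))
theorem l621 : HoldsN X6 (Trg.left (Trg.right (Trg.right (Trg.left (chamber 1 1))))) (Trg.right (Trg.left (Trg.left (Trg.left (chamberN 5 14))))) :=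
  HoldsN.of_red (k := 16) (m := 16) (leaf ok6 (G29 _ rfl) (G412 _ rfl) (G383 _ rfl) (by decide +kernel))
theorem l622 : HoldsN X6 (Trg.right (Trg.right (Trg.right (Trg.left (chamber 1 1))))) (Trg.left (Trg.left (Trg.left (chamberN 5 14)))) :=
  HoldsN.of_red (k := 16) (m := 16) (leaf ok6 (G52 _ rfl) (G345 _ rfl) (G277 _ rfl) (by decide +kernel))
theorem l623 : HoldsN X6 (Trg.right (Trg.left (chamber 1 1))) (Trg.right (Trg.left (Trg.left (chamberN 5 14)))) :=
  HoldsN.of_red (k := 16) (m := 16) (leaf ok6 (G93 _ rfl) (G283 _ rfl) (G283 _ rfl) (by decide +kernel))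
theorem l624 : HoldsN X6 (Trg.right (Trg.left (chamber 1 1))) (Trg.right (Trg.left (chamberN 5 14))) :=
  HoldsN.of_red (k := 16) (m := 16) (leaf ok6 (G33 _ rfl) (G235 _ rfl) (G235 _ rfl) (by decide +kernel))
theorem l625 : HoldsN X6 (Trg.left (Trg.left (Trg.left (Trg.left (chamber 1 1))))) (Trg.left (Trg.right (chamberN 5 14))) :=
  HoldsN.of_red (k := 16) (m := 16) (leaf ok6 (G45 _ rfl) (G424 _ rfl) (G153 _ rfl) (by decide +kernel))
theorem l626 : HoldsN X6 (Trg.right (Trg.left (Trg.left (Trg.left (chamber 1 1))))) (Trg.left (Trg.left (Trg.right (chamberN 5 14)))) :=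
  HoldsN.of_red (k := 16) (m := 16) (leaf ok6 (G17 _ rfl) (G423 _ rfl) (G342 _ rfl) (by decide +kernel))
theorem l627 : HoldsN X6 (Trg.right (Trg.left (Trg.left (Trg.left (chamber 1 1))))) (Trg.left (Trg.right (Trg.left (Trg.right (chamberN 5 14))))) :=
  HoldsN.of_red (k := 16) (m := 16) (leaf ok6 (G7 _ rfl) (G443 _ rfl) (G338 _ rfl) (by decide +kernel))
theorem l628 : HoldsN X6 (Trg.right (Trg.left (Trg.left (Trg.left (chamber 1 1))))) (Trg.right (Trg.right (Trg.left (Trg.right (chamberN 5 14))))) :=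
  HoldsN.of_red (k := 16) (m := 16) (leaf ok6 (G17 _ rfl) (G430 _ rfl) (G338 _ rfl) (by decide +kernel))
theorem l629 : HoldsN X6 (Trg.right (Trg.left (Trg.left (chamber 1 1)))) (Trg.left (Trg.right (chamberN 5 14))) :=
  HoldsN.of_red (k := 16) (m := 16) (leaf ok6 (G67 _ rfl) (G344 _ rfl) (G154 _ rfl) (by decide +kernel))

end Vale.Agent.Lib.P154N.D8
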