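import Vale.Agent.Lib.P154N.D8.Data
import Vale.Agent.Lib.P154N.Red

/-!
# Leaves of the tree of triangles
-/

namespace Vale.Agent.Lib.P154N.D8

open Vale.Agent.Lib.P154K Vale.Agent.Lib.P154Neg

theorem l70 : HoldsN X2 (Trg.left (Trg.right (Trg.right (Trg.left (chamberN 5 14))))) (Trg.left (Trg.right (Trg.left (Trg.left (Trg.left (chamberNR 5 14)))))) :=
  HoldsN.of_red (k := 16) (m := 16) (leaf ok2 (G378 _ rfl) (G127 _ rfl) (G348 _ rfl) (by decide +kernel))
theorem l71 : HoldsN X2 (Trg.left (Trg.right (Trg.right (Trg.left (chamberN 5 14))))) (Trg.right (Trg.right (Trg.left (Trg.left (Trg.left (chamberNR 5 14)))))) :=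
  HoldsN.of_red (k := 16) (m := 16) (leaf ok2 (G376 _ rfl) (G166 _ rfl) (G347 _ rfl) (by decide +kernel))
theorem l72 : HoldsN X2 (Trg.right (Trg.right (Trg.right (Trg.left (chamberN 5 14))))) (Trg.left (Trg.left (Trg.left (chamberNR 5 14)))) :=
  HoldsN.of_red (k := 16) (m := 16) (leaf ok2 (G298 _ rfl) (G140 _ rfl) (G348 _ rfl) (by decide +kernel))
theorem l73 : HoldsN X2 (Trg.right (Trg.left (chamberN 5 14))) (Trg.right (Trg.left (Trg.left (chamberNR 5 14)))) :=
  HoldsN.of_red (k := 16) (m := 16) (leaf ok2 (G272 _ rfl) (G206 _ rfl) (G320 _ rfl) (by decide +kernel))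
theorem l74 : HoldsN X2 (Trg.left (Trg.right (Trg.left (chamberN 5 14)))) (Trg.left (Trg.right (Trg.left (chamberNR 5 14)))) :=
  HoldsN.of_red (k := 16) (m := 16) (leaf ok2 (G242 _ rfl) (G169 _ rfl) (G358 _ rfl) (by decide +kernel))
theorem l75 : HoldsN X2 (Trg.left (Trg.right (Trg.left (chamberN 5 14)))) (Trg.right (Trg.right (Trg.left (chamberNR 5 14)))) :=
  HoldsN.of_red (k := 16) (m := 16) (leaf ok2 (G273 _ rfl) (G140 _ rfl) (G358 _ rfl) (by decide +kernel))
theorem l76 : HoldsN X2 (Trg.left (Trg.right (Trg.right (Trg.left (chamberN 5 14))))) (Trg.left (Trg.right (Trg.left (chamberNR 5 14)))) :=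
  HoldsN.of_red (k := 16) (m := 16) (leaf ok2 (G298 _ rfl) (G138 _ rfl) (G376 _ rfl) (by decide +kernel))
theorem l77 : HoldsN X2 (Trg.left (Trg.right (Trg.right (Trg.left (chamberN 5 14))))) (Trg.left (Trg.right (Trg.right (Trg.left (chamberNR 5 14))))) :=
  HoldsN.of_red (k := 16) (m := 16) (leaf ok2 (G361 _ rfl) (G127 _ rfl) (G357 _ rfl) (by decide +kernel))
theorem l78 : HoldsN X2 (Trg.left (Trg.right (Trg.right (Trg.left (chamberN 5 14))))) (Trg.right (Trg.right (Trg.right (Trg.left (chamberNR 5 14))))) :=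
  HoldsN.of_red (k := 16) (m := 16) (leaf ok2 (G314 _ rfl) (G138 _ rfl) (G375 _ rfl) (by decide +kernel))
theorem l79 : HoldsN X2 (Trg.right (Trg.right (Trg.right (Trg.left (chamberN 5 14))))) (Trg.right (Trg.left (chamberNR 5 14))) :=
  HoldsN.of_red (k := 16) (m := 16) (leaf ok2 (G273 _ rfl) (G140 _ rfl) (G358 _ rfl) (by decide +kernel))

end Vale.Agent.Lib.P154N.D8
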