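import Vale.Agent.Lib.P154N.D8.Data
import Vale.Agent.Lib.P154N.Red

/-!
# Leaves of the tree of triangles
-/

namespace Vale.Agent.Lib.P154N.D8

open Vale.Agent.Lib.P154K Vale.Agent.Lib.P154Neg

theorem l80 : HoldsN X2 (Trg.left (chamberN 5 14)) (Trg.left (Trg.right (chamberNR 5 14))) :=
  HoldsN.of_red (k := 16) (m := 16) (leaf ok2 (G343 _ rfl) (G109 _ rfl) (G247 _ rfl) (by decide +kernel))
theorem l81 : HoldsN X2 (Trg.left (Trg.left (Trg.left (Trg.left (chamberN 5 14))))) (Trg.left (Trg.right (Trg.right (chamberNR 5 14)))) :=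
  HoldsN.of_red (k := 16) (m := 16) (leaf ok2 (G324 _ rfl) (G206 _ rfl) (G292 _ rfl) (by decide +kernel))
theorem l82 : HoldsN X2 (Trg.right (Trg.left (Trg.left (Trg.left (chamberN 5 14))))) (Trg.left (Trg.left (Trg.right (Trg.right (chamberNR 5 14))))) :=
  HoldsN.of_red (k := 16) (m := 16) (leaf ok2 (G360 _ rfl) (G176 _ rfl) (G264 _ rfl) (by decide +kernel))
theorem l83 : HoldsN X2 (Trg.right (Trg.left (Trg.left (Trg.left (chamberN 5 14))))) (Trg.right (Trg.left (Trg.right (Trg.right (chamberNR 5 14))))) :=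
  HoldsN.of_red (k := 16) (m := 16) (leaf ok2 (G322 _ rfl) (G206 _ rfl) (G291 _ rfl) (by decide +kernel))
theorem l84 : HoldsN X2 (Trg.left (Trg.left (Trg.left (Trg.left (chamberN 5 14))))) (Trg.right (Trg.right (Trg.right (chamberNR 5 14)))) :=
  HoldsN.of_red (k := 16) (m := 16) (leaf ok2 (G323 _ rfl) (G168 _ rfl) (G294 _ rfl) (by decide +kernel))
theorem l85 : HoldsN X2 (Trg.left (Trg.right (Trg.left (Trg.left (Trg.left (chamberN 5 14)))))) (Trg.right (Trg.right (Trg.right (chamberNR 5 14)))) :=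
  HoldsN.of_red (k := 16) (m := 16) (leaf ok2 (G378 _ rfl) (G128 _ rfl) (G268 _ rfl) (by decide +kernel))
theorem l86 : HoldsN X2 (Trg.right (Trg.right (Trg.left (Trg.left (Trg.left (chamberN 5 14)))))) (Trg.right (Trg.right (Trg.right (chamberNR 5 14)))) :=
  HoldsN.of_red (k := 16) (m := 16) (leaf ok2 (G358 _ rfl) (G167 _ rfl) (G293 _ rfl) (by decide +kernel))
theorem l87 : HoldsN X2 (Trg.right (Trg.left (Trg.left (chamberN 5 14)))) (Trg.left (Trg.left (Trg.right (Trg.right (chamberNR 5 14))))) :=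
  HoldsN.of_red (k := 16) (m := 16) (leaf ok2 (G322 _ rfl) (G237 _ rfl) (G292 _ rfl) (by decide +kernel))
theorem l88 : HoldsN X2 (Trg.left (Trg.left (Trg.right (Trg.left (Trg.left (chamberN 5 14)))))) (Trg.right (Trg.left (Trg.right (Trg.right (chamberNR 5 14))))) :=
  HoldsN.of_red (k := 16) (m := 16) (leaf ok2 (G316 _ rfl) (G253 _ rfl) (G310 _ rfl) (by decide +kernel))
theorem l89 : HoldsN X2 (Trg.right (Trg.left (Trg.right (Trg.left (Trg.left (chamberN 5 14)))))) (Trg.right (Trg.left (Trg.right (Trg.right (chamberNR 5 14))))) :=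
  HoldsN.of_red (k := 16) (m := 16) (leaf ok2 (G315 _ rfl) (G289 _ rfl) (G310 _ rfl) (by decide +kernel))

end Vale.Agent.Lib.P154N.D8
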