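import Vale.Agent.Lib.P154N.D8.Data
import Vale.Agent.Lib.P154N.Red

/-!
# Leaves of the tree of triangles
-/

namespace Vale.Agent.Lib.P154N.D8

open Vale.Agent.Lib.P154K Vale.Agent.Lib.P154Neg

theorem l800 : HoldsN X8 (Trg.left (Trg.left (Trg.left (chamber 1 1)))) (Trg.left (Trg.left (Trg.left (chamberN 5 14)))) :=
  HoldsN.of_red (k := 16) (m := 16) (leaf ok8 (G33 _ rfl) (G285 _ rfl) (G285 _ rfl) (by decide +kernel))
theorem l801 : HoldsN X7 (Trg.left (Trg.left (Trg.left (chamber 1 1)))) (Trg.right (Trg.left (Trg.left (chamberN 5 14)))) :=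
  HoldsN.of_red (k := 16) (m := 16) (leaf ok7 (G93 _ rfl) (G278 _ rfl) (G305 _ rfl) (by decide +kernel))
theorem l802 : HoldsN X8 (Trg.left (Trg.left (Trg.left (chamber 1 1)))) (Trg.right (Trg.left (Trg.left (chamberN 5 14)))) :=
  HoldsN.of_red (k := 16) (m := 16) (leaf ok8 (G93 _ rfl) (G278 _ rfl) (G305 _ rfl) (by decide +kernel))
theorem l803 : HoldsN X7 (Trg.left (Trg.left (Trg.left (chamber 1 1)))) (Trg.right (Trg.left (chamberN 5 14))) :=
  HoldsN.of_red (k := 16) (m := 16) (leaf ok7 (G33 _ rfl) (G231 _ rfl) (G288 _ rfl) (by decide +kernel))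
theorem l804 : HoldsN X8 (Trg.left (Trg.left (Trg.left (chamber 1 1)))) (Trg.right (Trg.left (chamberN 5 14))) :=
  HoldsN.of_red (k := 16) (m := 16) (leaf ok8 (G33 _ rfl) (G231 _ rfl) (G288 _ rfl) (by decide +kernel))
theorem l805 : HoldsN X7 (Trg.right (Trg.left (Trg.left (chamber 1 1)))) (Trg.left (chamberN 5 14)) :=
  HoldsN.of_red (k := 16) (m := 16) (leaf ok7 (G93 _ rfl) (G283 _ rfl) (G283 _ rfl) (by decide +kernel))
theorem l806 : HoldsN X8 (Trg.right (Trg.left (Trg.left (chamber 1 1)))) (Trg.left (chamberN 5 14)) :=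
  HoldsN.of_red (k := 16) (m := 16) (leaf ok8 (G93 _ rfl) (G283 _ rfl) (G283 _ rfl) (by decide +kernel))
theorem l807 : HoldsN X7 (Trg.left (Trg.right (Trg.left (chamber 1 1)))) (Trg.left (Trg.left (Trg.left (chamberN 5 14)))) :=
  HoldsN.of_red (k := 16) (m := 16) (leaf ok7 (G52 _ rfl) (G356 _ rfl) (G226 _ rfl) (by decide +kernel))
theorem l808 : HoldsN X8 (Trg.left (Trg.right (Trg.left (chamber 1 1)))) (Trg.left (Trg.left (Trg.left (chamberN 5 14)))) :=
  HoldsN.of_red (k := 16) (m := 16) (leaf ok8 (G52 _ rfl) (G356 _ rfl) (G226 _ rfl) (by decide +kernel))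
theorem l809 : HoldsN X7 (Trg.left (Trg.right (Trg.right (Trg.left (chamber 1 1))))) (Trg.left (Trg.left (Trg.left (chamberN 5 14)))) :=
  HoldsN.of_red (k := 16) (m := 16) (leaf ok7 (G31 _ rfl) (G287 _ rfl) (G383 _ rfl) (by decide +kernel))

end Vale.Agent.Lib.P154N.D8
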