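import Vale.Agent.Lib.P154N.D8.Data
import Vale.Agent.Lib.P154N.Red

/-!
# Leaves of the tree of triangles
-/

namespace Vale.Agent.Lib.P154N.D8

open Vale.Agent.Lib.P154K Vale.Agent.Lib.P154Neg

theorem l830 : HoldsN X8 (Trg.left (Trg.left (Trg.left (Trg.right (Trg.left (chamber 1 1)))))) (Trg.right (Trg.left (Trg.left (Trg.right (chamberN 5 14))))) :=
  HoldsN.of_red (k := 16) (m := 16) (leaf ok8 (G39 _ rfl) (G453 _ rfl) (G165 _ rfl) (by decide +kernel))
theorem l831 : HoldsN X7 (Trg.right (Trg.left (Trg.left (Trg.right (Trg.left (chamber 1 1)))))) (Trg.left (Trg.left (Trg.right (chamberN 5 14)))) :=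
  HoldsN.of_red (k := 16) (m := 16) (leaf ok7 (G74 _ rfl) (G428 _ rfl) (G164 _ rfl) (by decide +kernel))
theorem l832 : HoldsN X8 (Trg.right (Trg.left (Trg.left (Trg.right (Trg.left (chamber 1 1)))))) (Trg.left (Trg.left (Trg.right (chamberN 5 14)))) :=
  HoldsN.of_red (k := 16) (m := 16) (leaf ok8 (G74 _ rfl) (G428 _ rfl) (G164 _ rfl) (by decide +kernel))
theorem l833 : HoldsN X7 (Trg.right (Trg.left (Trg.right (Trg.left (chamber 1 1))))) (Trg.left (Trg.left (Trg.left (Trg.left (Trg.right (chamberN 5 14)))))) :=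
  HoldsN.of_red (k := 16) (m := 16) (leaf ok7 (G39 _ rfl) (G455 _ rfl) (G123 _ rfl) (by decide +kernel))
theorem l834 : HoldsN X8 (Trg.right (Trg.left (Trg.right (Trg.left (chamber 1 1))))) (Trg.left (Trg.left (Trg.left (Trg.left (Trg.right (chamberN 5 14)))))) :=
  HoldsN.of_red (k := 16) (m := 16) (leaf ok8 (G39 _ rfl) (G455 _ rfl) (G123 _ rfl) (by decide +kernel))
theorem l835 : HoldsN X7 (Trg.right (Trg.left (Trg.right (Trg.left (chamber 1 1))))) (Trg.right (Trg.left (Trg.left (Trg.left (Trg.right (chamberN 5 14)))))) :=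
  HoldsN.of_red (k := 16) (m := 16) (leaf ok7 (G68 _ rfl) (G445 _ rfl) (G137 _ rfl) (by decide +kernel))
theorem l836 : HoldsN X8 (Trg.right (Trg.left (Trg.right (Trg.left (chamber 1 1))))) (Trg.right (Trg.left (Trg.left (Trg.left (Trg.right (chamberN 5 14)))))) :=
  HoldsN.of_red (k := 16) (m := 16) (leaf ok8 (G68 _ rfl) (G445 _ rfl) (G137 _ rfl) (by decide +kernel))
theorem l837 : HoldsN X7 (Trg.right (Trg.left (Trg.right (Trg.left (chamber 1 1))))) (Trg.right (Trg.left (Trg.left (Trg.right (chamberN 5 14))))) :=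
  HoldsN.of_red (k := 16) (m := 16) (leaf ok7 (G39 _ rfl) (G455 _ rfl) (G125 _ rfl) (by decide +kernel))
theorem l838 : HoldsN X8 (Trg.right (Trg.left (Trg.right (Trg.left (chamber 1 1))))) (Trg.right (Trg.left (Trg.left (Trg.right (chamberN 5 14))))) :=
  HoldsN.of_red (k := 16) (m := 16) (leaf ok8 (G39 _ rfl) (G455 _ rfl) (G125 _ rfl) (by decide +kernel))
theorem l839 : HoldsN X7 (Trg.left (Trg.right (Trg.left (chamber 1 1)))) (Trg.left (Trg.right (Trg.left (Trg.right (chamberN 5 14))))) :=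
  HoldsN.of_red (k := 16) (m := 16) (leaf ok7 (G31 _ rfl) (G452 _ rfl) (G80 _ rfl) (by decide +kernel))

end Vale.Agent.Lib.P154N.D8
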