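import Vale.Agent.Lib.P154N.D8.Data
import Vale.Agent.Lib.P154N.Red

/-!
# Leaves of the tree of triangles
-/

namespace Vale.Agent.Lib.P154N.D8

open Vale.Agent.Lib.P154K Vale.Agent.Lib.P154Neg

theorem l90 : HoldsN X2 (Trg.right (Trg.right (Trg.left (Trg.left (chamberN 5 14))))) (Trg.right (Trg.left (Trg.right (Trg.right (chamberNR 5 14))))) :=
  HoldsN.of_red (k := 16) (m := 16) (leaf ok2 (G316 _ rfl) (G253 _ rfl) (G311 _ rfl) (by decide +kernel))
theorem l91 : HoldsN X2 (Trg.right (Trg.left (Trg.left (chamberN 5 14)))) (Trg.right (Trg.right (Trg.right (chamberNR 5 14)))) :=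
  HoldsN.of_red (k := 16) (m := 16) (leaf ok2 (G322 _ rfl) (G206 _ rfl) (G295 _ rfl) (by decide +kernel))
theorem l92 : HoldsN X2 (Trg.left (Trg.right (Trg.left (chamberN 5 14)))) (Trg.left (Trg.right (Trg.right (chamberNR 5 14)))) :=
  HoldsN.of_red (k := 16) (m := 16) (leaf ok2 (G326 _ rfl) (G179 _ rfl) (G320 _ rfl) (by decide +kernel))
theorem l93 : HoldsN X2 (Trg.left (Trg.right (Trg.right (Trg.left (chamberN 5 14))))) (Trg.left (Trg.left (Trg.right (Trg.right (chamberNR 5 14))))) :=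
  HoldsN.of_red (k := 16) (m := 16) (leaf ok2 (G377 _ rfl) (G175 _ rfl) (G266 _ rfl) (by decide +kernel))
theorem l94 : HoldsN X2 (Trg.left (Trg.right (Trg.right (Trg.left (chamberN 5 14))))) (Trg.right (Trg.left (Trg.right (Trg.right (chamberNR 5 14))))) :=
  HoldsN.of_red (k := 16) (m := 16) (leaf ok2 (G322 _ rfl) (G206 _ rfl) (G292 _ rfl) (by decide +kernel))
theorem l95 : HoldsN X2 (Trg.right (Trg.right (Trg.right (Trg.left (chamberN 5 14))))) (Trg.left (Trg.right (Trg.right (chamberNR 5 14)))) :=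
  HoldsN.of_red (k := 16) (m := 16) (leaf ok2 (G326 _ rfl) (G179 _ rfl) (G316 _ rfl) (by decide +kernel))
theorem l96 : HoldsN X2 (Trg.left (Trg.right (Trg.left (chamberN 5 14)))) (Trg.right (Trg.right (Trg.right (chamberNR 5 14)))) :=
  HoldsN.of_red (k := 16) (m := 16) (leaf ok2 (G325 _ rfl) (G139 _ rfl) (G350 _ rfl) (by decide +kernel))
theorem l97 : HoldsN X2 (Trg.left (Trg.right (Trg.right (Trg.left (chamberN 5 14))))) (Trg.left (Trg.left (Trg.right (Trg.right (Trg.right (chamberNR 5 14)))))) :=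
  HoldsN.of_red (k := 16) (m := 16) (leaf ok2 (G377 _ rfl) (G160 _ rfl) (G317 _ rfl) (by decide +kernel))
theorem l98 : HoldsN X2 (Trg.left (Trg.right (Trg.right (Trg.left (chamberN 5 14))))) (Trg.right (Trg.left (Trg.right (Trg.right (Trg.right (chamberNR 5 14)))))) :=
  HoldsN.of_red (k := 16) (m := 16) (leaf ok2 (G385 _ rfl) (G127 _ rfl) (G321 _ rfl) (by decide +kernel))
theorem l99 : HoldsN X2 (Trg.left (Trg.left (Trg.right (Trg.right (Trg.left (chamberN 5 14)))))) (Trg.right (Trg.right (Trg.right (Trg.right (chamberNR 5 14))))) :=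
  HoldsN.of_red (k := 16) (m := 16) (leaf ok2 (G376 _ rfl) (G160 _ rfl) (G312 _ rfl) (by decide +kernel))

end Vale.Agent.Lib.P154N.D8
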