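import Vale.Agent.Lib.P154N.D8.Data
import Vale.Agent.Lib.P154N.Red

/-!
# Leaves of the tree of triangles
-/

namespace Vale.Agent.Lib.P154N.D8

open Vale.Agent.Lib.P154K Vale.Agent.Lib.P154Neg

theorem l970 : HoldsN X8 (Trg.right (Trg.right (Trg.left (Trg.right (chamber 1 1))))) (Trg.right (Trg.left (Trg.right (Trg.right (chamberN 5 14))))) :=
  HoldsN.of_red (k := 16) (m := 16) (leaf ok8 (G73 _ rfl) (G332 _ rfl) (G340 _ rfl) (by decide +kernel))
theorem l971 : HoldsN X7 (Trg.left (Trg.left (Trg.right (chamber 1 1)))) (Trg.right (Trg.right (Trg.right (chamberN 5 14)))) :=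
  HoldsN.of_red (k := 16) (m := 16) (leaf ok7 (G17 _ rfl) (G369 _ rfl) (G395 _ rfl) (by decide +kernel))
theorem l972 : HoldsN X8 (Trg.left (Trg.left (Trg.right (chamber 1 1)))) (Trg.right (Trg.right (Trg.right (chamberN 5 14)))) :=
  HoldsN.of_red (k := 16) (m := 16) (leaf ok8 (G17 _ rfl) (G369 _ rfl) (G395 _ rfl) (by decide +kernel))
theorem l973 : HoldsN X7 (Trg.right (Trg.left (Trg.right (chamber 1 1)))) (Trg.right (Trg.right (Trg.right (chamberN 5 14)))) :=
  HoldsN.of_red (k := 16) (m := 16) (leaf ok7 (G8 _ rfl) (G369 _ rfl) (G435 _ rfl) (by decide +kernel))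
theorem l974 : HoldsN X8 (Trg.right (Trg.left (Trg.right (chamber 1 1)))) (Trg.right (Trg.right (Trg.right (chamberN 5 14)))) :=
  HoldsN.of_red (k := 16) (m := 16) (leaf ok8 (G8 _ rfl) (G369 _ rfl) (G435 _ rfl) (by decide +kernel))
theorem l975 : HoldsN X7 (Trg.left (Trg.right (Trg.right (chamber 1 1)))) (Trg.left (Trg.left (Trg.left (chamberN 5 14)))) :=
  HoldsN.of_red (k := 16) (m := 16) (leaf ok7 (G67 _ rfl) (G227 _ rfl) (G344 _ rfl) (by decide +kernel))
theorem l976 : HoldsN X8 (Trg.left (Trg.right (Trg.right (chamber 1 1)))) (Trg.left (Trg.left (Trg.left (chamberN 5 14)))) :=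
  HoldsN.of_red (k := 16) (m := 16) (leaf ok8 (G67 _ rfl) (G227 _ rfl) (G344 _ rfl) (by decide +kernel))
theorem l977 : HoldsN X7 (Trg.left (Trg.left (Trg.right (Trg.right (chamber 1 1))))) (Trg.left (Trg.left (Trg.right (Trg.left (Trg.left (chamberN 5 14)))))) :=
  HoldsN.of_red (k := 16) (m := 16) (leaf ok7 (G119 _ rfl) (G269 _ rfl) (G361 _ rfl) (by decide +kernel))
theorem l978 : HoldsN X8 (Trg.left (Trg.left (Trg.right (Trg.right (chamber 1 1))))) (Trg.left (Trg.left (Trg.right (Trg.left (Trg.left (chamberN 5 14)))))) :=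
  HoldsN.of_red (k := 16) (m := 16) (leaf ok8 (G119 _ rfl) (G269 _ rfl) (G361 _ rfl) (by decide +kernel))
theorem l979 : HoldsN X7 (Trg.left (Trg.left (Trg.left (Trg.right (Trg.right (chamber 1 1)))))) (Trg.right (Trg.left (Trg.right (Trg.left (Trg.left (chamberN 5 14)))))) :=
  HoldsN.of_red (k := 16) (m := 16) (leaf ok7 (G206 _ rfl) (G292 _ rfl) (G320 _ rfl) (by decide +kernel))

end Vale.Agent.Lib.P154N.D8
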